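import Crest.Agent.R231.GM.LR
import Crest.Agent.R231.T.Susp

/-! R231, block GM: the box lemma.  Given `U`, choose `r ≤ ρ` and an open `B' ∋ x₀`, `B' ⊆ B₀`, with
`B' × closedBall r × closedBall r ⊆ U` and `ψ < a + κ (r/2)²` on `B'` (`ψ x = f (x,0,0)`); `LR.sub` gives `O₀ ⊆ B'`;
`O = O₀ × ball r × ball r`.  `RankLE.of_surj` with `y ↦ mp ι (cr (fund k (3r/4)) y)`, `ι (t,x) = (x,t,0)`.
`h2`: `susp_Bdy` with radii `r/2 < 3r/4 < r`, `mp_Bdy`.  `h1`: `p (x,t)` = minimiser of `f (x,t,·)` on `closedBall r`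
(`continuousOn_argmin`), `g (x,t) = f (x,t,p (x,t))` is non-increasing along rays in `t` (concave, maximal at `0`).
Three homotopies inside `U` at non-increasing level: slide `u` to `p`; expand `t` by the factor
`μ t = R' / clamp ‖t‖ σ R'` (`σ` from the compact supports of `c`, `dd c`: where `ψ x ≥ b` resp. `≥ a` one has `‖t‖ ≥ σ`);
slide `p` to `0` (level `≤ ψ x - κ ‖t‖²`).  Then `excise_surj` (open sets `{ψ < b}`, `{‖t‖ > r/2}`) and `susp_surj`. -/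

set_option autoImplicit false
set_option linter.unusedVariables false
set_option linter.unusedSectionVars false
set_option linter.unusedSimpArgs false
open Set
open scoped Classical ContDiff RealInnerProductSpace

noncomputable section
namespace Crest.Agent.R231

section
open Metric
variable {X P : Type} [TopologicalSpace X] [NormedAddCommGroup P] [NormedSpace ℝ P] [FiniteDimensional ℝ P]
  {k : ℕ} {f : X × (Fin k → ℝ) × P → ℝ}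

/-- the expansion factor -/
theorem box_mu {σ R r : ℝ} (hσ : 0 < σ) (hσR : σ ≤ R) (hR : R < r) : ∃ μ : (Fin k → ℝ) → ℝ, Continuous μ ∧
    (∀ t, 1 ≤ μ t) ∧ (∀ t, ‖t‖ < r → ‖μ t • t‖ < r) ∧ ∀ t, σ ≤ ‖t‖ → R ≤ ‖μ t • t‖ := by
  have hd : ∀ t : Fin k → ℝ, 0 < max σ (min ‖t‖ R) := fun t => lt_max_of_lt_left hσ
  have hR0 : 0 < R := hσ.trans_le hσR
  have hn : ∀ t : Fin k → ℝ, ‖(R / max σ (min ‖t‖ R)) • t‖ = R * ‖t‖ / max σ (min ‖t‖ R) := fun t => by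
    rw [norm_smul, Real.norm_of_nonneg (div_pos hR0 (hd t)).le]
    ring
  refine ⟨fun t => R / max σ (min ‖t‖ R), continuous_const.div (by fun_prop) fun t => (hd t).ne', fun t => ?_,
    fun t ht => ?_, fun t ht => ?_⟩
  · exact (one_le_div (hd t)).2 (max_le hσR (min_le_right _ _))
  · rw [hn, div_lt_iff₀ (hd t)]
    rcases le_total ‖t‖ R with h | h
    · rw [min_eq_left h]
      calc R * ‖t‖ ≤ R * max σ ‖t‖ := mul_le_mul_of_nonneg_left (le_max_right _ _) hR0.le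
        _ < r * max σ ‖t‖ := mul_lt_mul_of_pos_right hR (lt_max_of_lt_left hσ)
    · rw [min_eq_right h, max_eq_right hσR, mul_comm]
      exact mul_lt_mul_of_pos_right ht hR0
  · rw [hn, le_div_iff₀ (hd t)]
    exact mul_le_mul_of_nonneg_left (max_le ht (min_le_left _ _)) hR0.le

theorem box_sigma (hf : Continuous f) {S : Set (X × (Fin k → ℝ) × P)} {b : ℝ}
    (hS : ∀ z ∈ S, z.2.1 = 0 → f (z.1, 0, 0) < b) {c : Ch (X × (Fin k → ℝ) × P)} (hc : c ∈ sup S) :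
    ∃ σ, 0 < σ ∧ ∀ σ' ≤ σ, c ∈ sup (S ∩ {z | f (z.1, 0, 0) < b ∨ σ' ≤ ‖z.2.1‖}) := by
  obtain ⟨K, hK, hKS, hcK⟩ := exists_compact hc
  have hK' : IsCompact (K ∩ {z | b ≤ f (z.1, 0, 0)}) :=
    hK.inter_right (isClosed_le continuous_const (by fun_prop))
  obtain ⟨σ, hσ, h⟩ := hK'.exists_forall_le' (f := fun z => ‖z.2.1‖) (a := 0) (by fun_prop) fun z hz =>
    norm_pos_iff.2 fun h0 => absurd (hS z (hKS hz.1) h0) (not_lt.2 hz.2)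
  refine ⟨σ, hσ, fun σ' h' => sup_mono (A := K) (fun z hz => mem_inter (hKS hz) ?_) hcK⟩
  by_cases h1 : f (z.1, 0, 0) < b
  · exact Or.inl h1
  · exact Or.inr (h'.trans (h z ⟨hz, not_lt.1 h1⟩))

theorem box_min (hf : Continuous f) {B : Set X} {r : ℝ} (hr : 0 < r)
    (h1 : ∀ x ∈ B, ∀ t ∈ closedBall (0 : Fin k → ℝ) r, StrictConvexOn ℝ (closedBall 0 r) fun u => f (x, t, u)) :
    ∃ p : X × (Fin k → ℝ) → P, ContinuousOn p (B ×ˢ closedBall 0 r) ∧ (∀ z, p z ∈ closedBall (0 : P) r) ∧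
      ∀ z, ∀ u ∈ closedBall (0 : P) r, f (z.1, z.2, p z) ≤ f (z.1, z.2, u) := by
  have := FiniteDimensional.proper ℝ P
  have hK := isCompact_closedBall (0 : P) r
  choose p hp1 hp2 using fun z : X × (Fin k → ℝ) => hK.exists_isMinOn (f := fun u => f (z.1, z.2, u))
    ⟨0, mem_closedBall_self hr.le⟩ (by fun_prop)
  refine ⟨p, continuousOn_argmin hK (F := fun q => f (q.1.1, q.1.2, q.2)) (by fun_prop) (fun z _ => hp1 z)
    fun z hz u hu hne => ?_, hp1, fun z u hu => hp2 z hu⟩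
  refine lt_of_le_of_ne (hp2 z hu) fun he => hne ?_
  refine (h1 z.1 hz.1 z.2 hz.2).eq_of_isMinOn (fun v hv => ?_) (hp2 z) hu (hp1 z)
  have h3 := hp2 z hv
  simp only [mem_ofPred_eq] at h3 he ⊢
  linarith

theorem box_key {V : Type} [AddCommGroup V] [Module F2 V] {S : Submodule F2 V} {c c1 c2 c3 y : V}
    (d1 : c + c1 ∈ S) (d2 : c1 + c2 ∈ S) (d3 : c3 + c2 ∈ S) (d4 : c3 + y ∈ S) : c + y ∈ S := by
  have e : c + y = c + c1 + (c1 + c2) + (c3 + c2) + (c3 + y) := by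
    calc c + y = c + y + (c1 + c1) + (c2 + c2) + (c3 + c3) := by simp only [add_self, add_zero]
      _ = _ := by abel
  rw [e]
  exact add_mem (add_mem (add_mem d1 d2) d3) d4

theorem box_key' {V : Type} [AddCommGroup V] [Module F2 V] {S : Submodule F2 V} {c c1 y : V}
    (d1 : c + c1 ∈ S) (d2 : c1 + y ∈ S) : c + y ∈ S := by
  have := add_mem d1 d2
  rwa [add_assoc, ← add_assoc c1, add_self, zero_add] at this

theorem box_surj (hf : Continuous f) {B : Set X} {r κ a b : ℝ} (hr : 0 < r) (hκ : 0 < κ) (hab : a < b)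
    (h1 : ∀ x ∈ B, ∀ t ∈ closedBall (0 : Fin k → ℝ) r, StrictConvexOn ℝ (closedBall 0 r) fun u => f (x, t, u))
    (h2 : ∀ x ∈ B, ∀ u ∈ closedBall (0 : P) r, ConcaveOn ℝ (closedBall 0 r) fun t => f (x, t, u))
    (h3 : ∀ x ∈ B, ∀ t ∈ closedBall (0 : Fin k → ℝ) r, f (x, t, 0) ≤ f (x, 0, 0) - κ * ‖t‖ ^ 2)
    (h4 : ∀ x ∈ B, ∀ u ∈ closedBall (0 : P) r, f (x, 0, 0) ≤ f (x, 0, u))
    (h5 : ∀ x ∈ B, f (x, 0, 0) < a + κ * (r / 2) ^ 2) {U : Set (X × (Fin k → ℝ) × P)}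
    (hU : ∀ x ∈ B, ∀ t ∈ closedBall (0 : Fin k → ℝ) r, ∀ u ∈ closedBall (0 : P) r, (x, t, u) ∈ U)
    {c : Ch (X × (Fin k → ℝ) × P)}
    (hc : c ∈ Cyc (B ×ˢ ball 0 r ×ˢ ball 0 r ∩ Sb f b) (B ×ˢ ball 0 r ×ˢ ball 0 r ∩ Sb f a)) :
    ∃ y ∈ Cyc (B ∩ Sb (fun x => f (x, 0, 0)) b) (B ∩ Sb (fun x => f (x, 0, 0)) a),
      c + mp (fun q : (Fin k → ℝ) × X => (q.2, q.1, (0 : P))) (cr (fund k (3 * r / 4)) y) ∈
        Bdy (U ∩ Sb f b) (U ∩ Sb f a) := by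
  obtain ⟨p, hpc, hp1, hp2⟩ := box_min hf hr h1
  have z0 : (0 : P) ∈ closedBall (0 : P) r := mem_closedBall_self hr.le
  have hz : ∀ e, ∀ z ∈ B ×ˢ ball (0 : Fin k → ℝ) r ×ˢ ball (0 : P) r ∩ Sb f e, z.2.1 = 0 → f (z.1, 0, 0) < e :=
    fun e z hz h0 => by
      have h6 := h4 z.1 hz.1.1 z.2.2 (ball_subset_closedBall hz.1.2.2)
      rw [← h0] at h6 ⊢
      exact h6.trans_lt hz.2
  obtain ⟨σ₁, hσ₁, k₁⟩ := box_sigma hf (hz b) hc.1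
  obtain ⟨σ₂, hσ₂, k₂⟩ := box_sigma hf (hz a) hc.2
  obtain ⟨σ, hσ, e₁, e₂, e₃⟩ : ∃ σ, 0 < σ ∧ σ ≤ σ₁ ∧ σ ≤ σ₂ ∧ σ ≤ 3 * r / 4 :=
    ⟨min σ₁ (min σ₂ (3 * r / 4)), lt_min hσ₁ (lt_min hσ₂ (by linarith)), min_le_left _ _,
      (min_le_right _ _).trans (min_le_left _ _), (min_le_right _ _).trans (min_le_right _ _)⟩
  obtain ⟨μ, hμc, hμ1, hμr, hμR⟩ := box_mu (k := k) hσ e₃ (show 3 * r / 4 < r by linarith)
  set S : ℝ → Set (X × (Fin k → ℝ) × P) := fun e =>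
    (B ×ˢ ball 0 r ×ˢ ball 0 r ∩ Sb f e) ∩ {z | f (z.1, 0, 0) < e ∨ σ ≤ ‖z.2.1‖} with hS
  have hc' : c ∈ Cyc (S b) (S a) := ⟨k₁ σ e₁, k₂ σ e₂⟩
  have hSt : ∀ {e z}, z ∈ S e → ‖z.2.1‖ < r := fun hz => mem_ball_zero_iff.1 hz.1.1.2.1
  have hcl : ∀ {t : Fin k → ℝ}, ‖t‖ < r → t ∈ closedBall (0 : Fin k → ℝ) r := fun ht =>
    mem_closedBall_zero_iff.2 ht.le
  -- the level on the zero section
  have hlow : ∀ e, a ≤ e → ∀ x ∈ B, ∀ t : Fin k → ℝ, ‖t‖ < r → (f (x, 0, 0) < e ∨ r / 2 < ‖t‖) →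
      f (x, t, 0) < e := fun e he x hx t ht h => by
    have h6 := h3 x hx t (hcl ht)
    rcases h with h | h
    · nlinarith [mul_nonneg hκ.le (sq_nonneg ‖t‖)]
    · have h7 := h5 x hx
      have h8 : (r / 2) ^ 2 ≤ ‖t‖ ^ 2 := pow_le_pow_left₀ (by linarith) h.le 2
      nlinarith [mul_le_mul_of_nonneg_left h8 hκ.le]
  -- radial monotonicity
  have hrad : ∀ x ∈ B, ∀ (t : Fin k → ℝ) (ν : ℝ), 1 ≤ ν → ‖t‖ < r → ‖ν • t‖ < r →
      f (x, ν • t, p (x, ν • t)) ≤ f (x, t, p (x, t)) := fun x hx t ν hν ht hνt => by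
    have hν0 : 0 < ν := by linarith
    have h6 := (h2 x hx _ (hp1 (x, t))).2 (hcl hνt) (mem_closedBall_self hr.le)
      (inv_pos.2 hν0).le (sub_nonneg.2 (inv_le_one_of_one_le₀ hν)) (add_sub_cancel _ _)
    simp only [smul_zero, add_zero, inv_smul_smul₀ hν0.ne', smul_eq_mul] at h6
    have h7 := hp2 (x, ν • t) _ (hp1 (x, t))
    have h8 := hp2 (x, ν • t) _ z0
    have h9 := h3 x hx _ (hcl hνt)
    have h10 := h4 x hx _ (hp1 (x, t))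
    have h11 : 0 ≤ κ * ‖ν • t‖ ^ 2 := by positivity
    dsimp only at h7 h8
    have i1 := mul_le_mul_of_nonneg_left h7 (inv_pos.2 hν0).le
    have i2 := mul_le_mul_of_nonneg_left (show f (x, ν • t, p (x, ν • t)) ≤ f (x, 0, p (x, t)) by linarith)
      (sub_nonneg.2 (inv_le_one_of_one_le₀ hν))
    linarith
  have hconv : ∀ x ∈ B, ∀ t : Fin k → ℝ, ‖t‖ < r → ∀ u ∈ closedBall (0 : P) r, ∀ s ∈ Icc (0 : ℝ) 1,
      (1 - s) • u + s • p (x, t) ∈ closedBall (0 : P) r ∧ f (x, t, (1 - s) • u + s • p (x, t)) ≤ f (x, t, u) :=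
    fun x hx t ht u hu s hs => by
      have h6 := (h1 x hx t (hcl ht)).convexOn
      have s1 : 0 ≤ 1 - s := sub_nonneg.2 hs.2
      refine ⟨h6.1 hu (hp1 _) s1 hs.1 (by ring), (h6.2 hu (hp1 _) s1 hs.1 (by ring)).trans ?_⟩
      have h7 := mul_le_mul_of_nonneg_left (hp2 (x, t) u hu) hs.1
      simp only [smul_eq_mul] at h7 ⊢
      linarith
  have hν : ∀ s ∈ Icc (0 : ℝ) 1, ∀ t : Fin k → ℝ, ‖t‖ < r →
      1 ≤ 1 + s * (μ t - 1) ∧ ‖(1 + s * (μ t - 1)) • t‖ < r := fun s hs t ht => by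
    have h6 := hμ1 t
    have h7 : 1 ≤ 1 + s * (μ t - 1) := by nlinarith [hs.1]
    refine ⟨h7, lt_of_le_of_lt ?_ (hμr t ht)⟩
    rw [norm_smul, norm_smul, Real.norm_of_nonneg (by linarith), Real.norm_of_nonneg (by linarith)]
    exact mul_le_mul_of_nonneg_right (by nlinarith [hs.2]) (norm_nonneg _)
  have hpc' : ∀ {g : ℝ × X × (Fin k → ℝ) × P → Fin k → ℝ}, Continuous g →
      (∀ q ∈ Icc (0 : ℝ) 1 ×ˢ S b, ‖g q‖ < r) → ContinuousOn (fun q => p (q.2.1, g q)) (Icc 0 1 ×ˢ S b) :=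
    fun hg h => hpc.comp (by fun_prop) fun q hq => ⟨hq.2.1.1.1, hcl (h q hq)⟩
  -- first homotopy
  have m1 : ∀ e, MapsTo (fun q : ℝ × X × (Fin k → ℝ) × P =>
      (q.2.1, q.2.2.1, (1 - q.1) • q.2.2.2 + q.1 • p (q.2.1, q.2.2.1))) (Icc 0 1 ×ˢ S e) (U ∩ Sb f e) :=
    fun e q hq => by
      have h6 := hconv _ hq.2.1.1.1 _ (hSt hq.2) _ (ball_subset_closedBall hq.2.1.1.2.2) _ hq.1
      exact ⟨hU _ hq.2.1.1.1 _ (hcl (hSt hq.2)) _ h6.1, h6.2.trans_lt hq.2.1.2⟩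
  have d1 := hty_Bdy (ContinuousOn.prodMk (by fun_prop) (ContinuousOn.prodMk (by fun_prop)
    (ContinuousOn.fun_add (by fun_prop) (ContinuousOn.fun_smul (by fun_prop)
      (hpc' (g := fun q => q.2.2.1) (by fun_prop) fun q hq => hSt hq.2))))) (m1 b) (m1 a) hc'
  -- second homotopy
  have m2 : ∀ e, MapsTo (fun q : ℝ × X × (Fin k → ℝ) × P =>
      (q.2.1, (1 + q.1 * (μ q.2.2.1 - 1)) • q.2.2.1, p (q.2.1, (1 + q.1 * (μ q.2.2.1 - 1)) • q.2.2.1)))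
      (Icc 0 1 ×ˢ S e) (U ∩ Sb f e) := fun e q hq => by
    have h6 := hν _ hq.1 _ (hSt hq.2)
    refine ⟨hU _ hq.2.1.1.1 _ (hcl h6.2) _ (hp1 _), ((hrad _ hq.2.1.1.1 _ _ h6.1 (hSt hq.2) h6.2).trans
      (hp2 (q.2.1, q.2.2.1) _ (ball_subset_closedBall hq.2.1.1.2.2))).trans_lt hq.2.1.2⟩
  have d2 := hty_Bdy (ContinuousOn.prodMk (by fun_prop) (ContinuousOn.prodMk (by fun_prop)
    (hpc' (g := fun q => (1 + q.1 * (μ q.2.2.1 - 1)) • q.2.2.1) (by fun_prop)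
      fun q hq => (hν _ hq.1 _ (hSt hq.2)).2))) (m2 b) (m2 a) hc'
  -- third homotopy
  have hexp : ∀ {e z}, z ∈ S e → f (z.1, 0, 0) < e ∨ r / 2 < ‖μ z.2.1 • z.2.1‖ := fun hz =>
    hz.2.imp_right fun h => lt_of_lt_of_le (by linarith) (hμR _ h)
  have m3 : ∀ e, a ≤ e → MapsTo (fun q : ℝ × X × (Fin k → ℝ) × P =>
      (q.2.1, μ q.2.2.1 • q.2.2.1, (1 - q.1) • (0 : P) + q.1 • p (q.2.1, μ q.2.2.1 • q.2.2.1)))
      (Icc 0 1 ×ˢ S e) (U ∩ Sb f e) := fun e he q hq => by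
    have h6 := hμr _ (hSt hq.2)
    have h7 := hconv _ hq.2.1.1.1 _ h6 _ z0 _ hq.1
    exact ⟨hU _ hq.2.1.1.1 _ (hcl h6) _ h7.1, h7.2.trans_lt (hlow e he _ hq.2.1.1.1 _ h6 (hexp hq.2))⟩
  have d3 := hty_Bdy (ContinuousOn.prodMk (by fun_prop) (ContinuousOn.prodMk (by fun_prop)
    (ContinuousOn.fun_add (by fun_prop) (ContinuousOn.fun_smul (by fun_prop)
      (hpc' (g := fun q => μ q.2.2.1 • q.2.2.1) (by fun_prop) fun q hq => hμr _ (hSt hq.2))))))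
    (m3 b hab.le) (m3 a le_rfl) hc'
  simp only [sub_zero, one_smul, zero_smul, add_zero, sub_self, zero_add, zero_mul, one_mul, add_sub_cancel,
    smul_zero, Prod.mk.eta, mp_id] at d1 d2 d3
  -- excision and suspension
  set ψ : X → ℝ := fun x => f (x, 0, 0) with hψ
  have hψc : Continuous ψ := by fun_prop
  set T : ℝ → Set ((Fin k → ℝ) × X) := fun e =>
    {q | ‖q.1‖ < r ∧ q.2 ∈ B ∧ (ψ q.2 < e ∨ r / 2 < ‖q.1‖)} with hT
  have mj : ∀ e, MapsTo (fun z : X × (Fin k → ℝ) × P => (μ z.2.1 • z.2.1, z.1)) (S e) (T e) :=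
    fun e z hz => ⟨hμr _ (hSt hz), hz.1.1.1, hexp hz⟩
  have mι : ∀ e, a ≤ e → MapsTo (fun q : (Fin k → ℝ) × X => (q.2, q.1, (0 : P))) (T e) (U ∩ Sb f e) :=
    fun e he q hq => ⟨hU _ hq.2.1 _ (hcl hq.1) _ z0, hlow e he _ hq.2.1 _ hq.1 hq.2.2⟩
  have c3 := mp_Cyc (by fun_prop) (mj b) (mj a) hc'
  obtain ⟨c', hc1, hc2⟩ := excise_surj (U := {q : (Fin k → ℝ) × X | ψ q.2 < b}) (V := {q | r / 2 < ‖q.1‖})
    (isOpen_lt (by fun_prop) continuous_const) (isOpen_lt continuous_const (by fun_prop))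
    (A := T b) (B := T a) (fun q hq => hq.2.2)
    (fun q hq => show _ ∧ _ ∧ _ from ⟨hq.1.1, hq.1.2.1, Or.inr hq.2⟩) c3
  have hin : B ∩ Sb ψ b ∩ Sb ψ a = B ∩ Sb ψ a := by
    ext x
    exact ⟨fun h => ⟨h.1.1, h.2⟩, fun h => ⟨⟨h.1, lt_trans h.2 hab⟩, h.2⟩⟩
  have j1 : T b ∩ {q | ψ q.2 < b} ⊆ ball 0 r ×ˢ (B ∩ Sb ψ b) := fun q hq =>
    ⟨mem_ball_zero_iff.2 hq.1.1, hq.1.2.1, hq.2⟩
  have j2 : T a ∩ {q | ψ q.2 < b} ⊆ Low k (r / 2) r (B ∩ Sb ψ b) (B ∩ Sb ψ b ∩ Sb ψ a) := fun q hq => by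
    rcases hq.1.2.2 with h | h
    · exact Or.inl ⟨mem_ball_zero_iff.2 hq.1.1, ⟨hq.1.2.1, hq.2⟩, h⟩
    · exact Or.inr ⟨⟨mem_ball_zero_iff.2 hq.1.1, fun h' => absurd (mem_closedBall_zero_iff.1 h') (not_le.2 h)⟩,
        hq.1.2.1, hq.2⟩
  obtain ⟨y, hy1, hy2⟩ := susp_surj k (r := r / 2) (R' := 3 * r / 4) (R := r) (by linarith) (by linarith)
    (by linarith) (A := B ∩ Sb ψ b) (U := Sb ψ a) (isOpen_lt hψc continuous_const) (w := c')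
    (Cyc_mono j1 j2 hc1)
  rw [hin] at hy1
  refine ⟨y, hy1, ?_⟩
  have j3 : ball 0 r ×ˢ (B ∩ Sb ψ b) ⊆ T b := fun q hq => ⟨mem_ball_zero_iff.1 hq.1, hq.2.1, Or.inl hq.2.2⟩
  have j4 : Low k (r / 2) r (B ∩ Sb ψ b) (B ∩ Sb ψ b ∩ Sb ψ a) ⊆ T a := fun q hq => by
    rcases hq with h | h
    · exact ⟨mem_ball_zero_iff.1 h.1, h.2.1.1, Or.inl h.2.2⟩
    · exact ⟨mem_ball_zero_iff.1 h.1.1, h.2.1, Or.inr (not_le.1 fun h' => h.1.2 (mem_closedBall_zero_iff.2 h'))⟩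
  have hy3 := Bdy_mono j3 j4 hy2
  have d4 := mp_Bdy (by fun_prop) (mι b hab.le) (mι a le_rfl) (box_key' hc2 hy3)
  rw [map_add, mp_comp hc'.1 (by fun_prop)] at d4
  dsimp only at d4
  exact box_key d1 d2 d3 d4

end

theorem LR.box {X P : Type} [TopologicalSpace X] [NormedAddCommGroup P] [NormedSpace ℝ P] [FiniteDimensional ℝ P]
    {k : ℕ} {f : X × (Fin k → ℝ) × P → ℝ} (hf : Continuous f) {x₀ : X} {B₀ : Set X} (hB : IsOpen B₀) (hx : x₀ ∈ B₀)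
    {ρ κ : ℝ} (hρ : 0 < ρ) (hκ : 0 < κ)
    (h1 : ∀ x ∈ B₀, ∀ t ∈ Metric.closedBall (0 : Fin k → ℝ) ρ,
      StrictConvexOn ℝ (Metric.closedBall 0 ρ) fun u => f (x, t, u))
    (h2 : ∀ x ∈ B₀, ∀ u ∈ Metric.closedBall (0 : P) ρ, ConcaveOn ℝ (Metric.closedBall 0 ρ) fun t => f (x, t, u))
    (h3 : ∀ x ∈ B₀, ∀ t ∈ Metric.closedBall (0 : Fin k → ℝ) ρ, f (x, t, 0) ≤ f (x, 0, 0) - κ * ‖t‖ ^ 2)
    (h4 : ∀ x ∈ B₀, ∀ u ∈ Metric.closedBall (0 : P) ρ, f (x, 0, 0) ≤ f (x, 0, u)) {R : ℕ}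
    (h : LR (fun x => f (x, 0, 0)) {x₀} (f (x₀, 0, 0)) R) : LR f {(x₀, 0, 0)} (f (x₀, 0, 0)) R := by
  intro U hU hC
  obtain ⟨B₁, V, hB₁, hV, hx₁, hV0, hBV⟩ := isOpen_prod_iff.1 hU x₀ (0, 0) (hC rfl)
  obtain ⟨r₀, hr₀, hrV⟩ := Metric.nhds_basis_closedBall.mem_iff.1 (hV.mem_nhds hV0)
  obtain ⟨r, hr, hrρ, hr₁⟩ : ∃ r, 0 < r ∧ r ≤ ρ ∧ r ≤ r₀ := ⟨min ρ r₀, lt_min hρ hr₀, min_le_left _ _, min_le_right _ _⟩
  have s1 : Metric.closedBall (0 : Fin k → ℝ) r ⊆ Metric.closedBall 0 ρ := Metric.closedBall_subset_closedBall hrρ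
  have s2 : Metric.closedBall (0 : P) r ⊆ Metric.closedBall 0 ρ := Metric.closedBall_subset_closedBall hrρ
  set B' := B₀ ∩ B₁ ∩ {x | f (x, 0, 0) < f (x₀, 0, 0) + κ * (r / 2) ^ 2} with hB'
  have hU' : ∀ x ∈ B', ∀ t ∈ Metric.closedBall (0 : Fin k → ℝ) r, ∀ u ∈ Metric.closedBall (0 : P) r,
      (x, t, u) ∈ U := fun x hx t ht u hu => by
    refine hBV ⟨hx.1.2, hrV ?_⟩
    rw [show ((0, 0) : (Fin k → ℝ) × P) = 0 from rfl, mem_closedBall_zero_iff, Prod.norm_def]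
    exact max_le ((mem_closedBall_zero_iff.1 ht).trans hr₁) ((mem_closedBall_zero_iff.1 hu).trans hr₁)
  obtain ⟨O, hO, hxO, hOB, b₀, hb₀, hR⟩ := h.sub (U := B')
    ((hB.inter hB₁).inter (isOpen_lt (by fun_prop) continuous_const))
    (singleton_subset_iff.2 ⟨⟨hx, hx₁⟩, by
      have : 0 < κ * (r / 2) ^ 2 := by positivity
      exact lt_add_of_pos_right _ this⟩)
  refine ⟨O ×ˢ Metric.ball 0 r ×ˢ Metric.ball 0 r, hO.prod (Metric.isOpen_ball.prod Metric.isOpen_ball),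
    singleton_subset_iff.2 ⟨hxO rfl, Metric.mem_ball_self hr, Metric.mem_ball_self hr⟩, b₀, hb₀,
    fun b hab hb => ?_⟩
  refine RankLE.of_surj (mp (fun q : (Fin k → ℝ) × X => (q.2, q.1, (0 : P))) ∘ₗ cr (fund k (3 * r / 4)))
    (fun c hc => ?_) (fun y _ hy => ?_) (hR b hab hb)
  · simp only [LinearMap.comp_apply]
    exact box_surj hf hr hκ hab
      (fun x hx t ht => (h1 x (hOB hx).1.1 t (s1 ht)).subset s2 (convex_closedBall _ _))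
      (fun x hx u hu => (h2 x (hOB hx).1.1 u (s2 hu)).subset s1 (convex_closedBall _ _))
      (fun x hx t ht => h3 x (hOB hx).1.1 t (s1 ht)) (fun x hx u hu => h4 x (hOB hx).1.1 u (s2 hu))
      (fun x hx => (hOB hx).2) (fun x hx => hU' x (hOB hx)) hc
  rw [LinearMap.comp_apply]
  have z0 : (0 : P) ∈ Metric.closedBall (0 : P) r := Metric.mem_closedBall_self hr.le
  refine mp_Bdy (f := fun q : (Fin k → ℝ) × X => (q.2, q.1, (0 : P))) (by fun_prop) (fun q hq => ?_) (fun q hq => ?_)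
    (susp_Bdy k (r := r / 2) (R := r) (by linarith) (by linarith) (by linarith) hy)
  · have ht := Metric.ball_subset_closedBall hq.1
    have h6 := h3 _ hq.2.1.1.1 _ (s1 ht)
    have h7 : f (q.2, 0, 0) < b := hq.2.2
    have : 0 ≤ κ * ‖q.1‖ ^ 2 := by positivity
    exact ⟨hU' _ hq.2.1 _ ht _ z0, show f (q.2, q.1, 0) < b by linarith⟩
  · rcases hq with hq | hq
    · have ht := Metric.ball_subset_closedBall hq.1
      have h6 := h3 _ hq.2.1.1.1 _ (s1 ht)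
      have h7 : f (q.2, 0, 0) < f (x₀, 0, 0) := hq.2.2
      have : 0 ≤ κ * ‖q.1‖ ^ 2 := by positivity
      exact ⟨hU' _ hq.2.1 _ ht _ z0, show f (q.2, q.1, 0) < _ by linarith⟩
    · have ht := Metric.ball_subset_closedBall hq.1.1
      have h6 := h3 _ hq.2.1.1.1 _ (s1 ht)
      have h7 : f (q.2, 0, 0) < f (x₀, 0, 0) + κ * (r / 2) ^ 2 := hq.2.1.2
      have h8 : r / 2 < ‖q.1‖ := not_le.1 fun h' => hq.1.2 (mem_closedBall_zero_iff.2 h')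
      have h9 : (r / 2) ^ 2 ≤ ‖q.1‖ ^ 2 := pow_le_pow_left₀ (by linarith) h8.le 2
      have h10 := mul_le_mul_of_nonneg_left h9 hκ.le
      exact ⟨hU' _ hq.2.1 _ ht _ z0, show f (q.2, q.1, 0) < _ by linarith⟩

end Crest.Agent.R231
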