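import Crest.Agent.R231.D.Poly
import Crest.Agent.R231.T.Rank

/-! R231, block GM: definitions (owner helper64; FROZEN).
`LR f C a R`: the local homology of `f` at the level `a` along the set `C` has rank `≤ R`.
`NH f C F₀ F₁`: near `C` the maps `F₀`, `F₁` induce the same map on the local homology.
Discrete model at a polygon `p`: chart `Ph a v = √(1-‖v‖²) a + v` (smoothed for large `v`), `FF p y` = discrete energy of
the polygon `ch p y`, slice `V0 p w`. -/

set_option autoImplicit false
set_option linter.unusedVariables false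
set_option linter.unusedSectionVars false
set_option linter.unusedSimpArgs false
open Set
open scoped Classical ContDiff RealInnerProductSpace

noncomputable section
namespace Crest.Agent.R231

/-- open sublevel -/
def Sb {X : Type} (f : X → ℝ) (a : ℝ) : Set X := {x | f x < a}

def LR {X : Type} [TopologicalSpace X] (f : X → ℝ) (C : Set X) (a : ℝ) (R : ℕ) : Prop :=
  ∀ U, IsOpen U → C ⊆ U → ∃ O, IsOpen O ∧ C ⊆ O ∧ ∃ b₀, a < b₀ ∧ ∀ b, a < b → b ≤ b₀ →
    RankLE (O ∩ Sb f b) (O ∩ Sb f a) (U ∩ Sb f b) (U ∩ Sb f a) R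

def NH {X : Type} [TopologicalSpace X] (f : X → ℝ) (C : Set X) (F₀ F₁ : X → X) : Prop :=
  ∀ U, IsOpen U → C ⊆ U → ∃ O, IsOpen O ∧ C ⊆ O ∧ ∀ a b, ∀ c ∈ Cyc (O ∩ Sb f b) (O ∩ Sb f a),
    mp F₀ c + mp F₁ c ∈ Bdy (U ∩ Sb f b) (U ∩ Sb f a)

/-- a globally smooth version of `√(1-s)` -/
theorem exists_th : ∃ θ : ℝ → ℝ, ContDiff ℝ ∞ θ ∧ ∀ s, |s| ≤ 1 / 2 → θ s = √(1 - s) := by
  let β : ContDiffBump (0 : ℝ) := ⟨1 / 2, 3 / 4, by norm_num, by norm_num⟩
  refine ⟨fun s => √(1 - s * β s), ?_, fun s hs => ?_⟩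
  · refine (contDiff_const.sub (contDiff_id.mul β.contDiff)).sqrt fun s => ne_of_gt ?_
    have h0 := β.nonneg' s
    have h1 := β.le_one (x := s)
    simp only [id]
    by_cases hs : s < 3 / 4
    · nlinarith
    · have : β s = 0 := β.zero_of_le_dist (by
        rw [Real.dist_eq, sub_zero]; exact le_trans (not_lt.1 hs) (le_abs_self s))
      simp [this]
  · have : β s = 1 := β.one_of_mem_closedBall (by
      rw [mem_closedBall_zero_iff, Real.norm_eq_abs]; exact hs)
    simp [this]

def th : ℝ → ℝ := exists_th.choose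

variable {n : ℕ}

/-- the chart of the sphere at `a` -/
def Ph (a v : E n) : E n := th (‖v‖ ^ 2) • a + v

/-- total map to the sphere -/
def toM (v : E n) : M n := if h : ‖v‖ = 1 then ⟨v, by simpa using h⟩ else north n

/-- total map to a submodule -/
def toSub {A : Type} [AddCommGroup A] [Module ℝ A] (S : Submodule ℝ A) (v : A) : S :=
  if h : v ∈ S then ⟨v, h⟩ else 0

section
variable {N : ℕ} [NeZero N]

/-- the polygon with coordinates `y` -/
def ch (p : ZMod N → M n) (y : ZMod N → E n) : ZMod N → M n := fun k => toM (Ph (p k) (y k))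

/-- the coordinates of a polygon -/
def co (p x : ZMod N → M n) : ZMod N → E n := fun k => (x k : E n) - ⟪(x k : E n), (p k : E n)⟫ • (p k : E n)

/-- tangent vectors -/
def VV (p : ZMod N → M n) : Submodule ℝ (ZMod N → E n) where
  carrier := {y | ∀ k, ⟪y k, (p k : E n)⟫ = 0}
  zero_mem' := fun k => by simp
  add_mem' := fun {a b} ha hb k => by simp [inner_add_left, ha k, hb k]
  smul_mem' := fun c a ha k => by simp [inner_smul_left, ha k]

/-- the slice functional -/
def xi (w : ZMod N → E n) : (ZMod N → E n) →ₗ[ℝ] ℝ where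
  toFun y := ∑ k, ⟪y k, w k⟫
  map_add' a b := by simp [inner_add_left, Finset.sum_add_distrib]
  map_smul' c a := by simp [inner_smul_left, Finset.mul_sum]

/-- the slice functional on polygons -/
def xM (w : ZMod N → E n) (x : ZMod N → M n) : ℝ := ∑ k, ⟪(x k : E n), w k⟫

/-- the slice -/
def V0 (p : ZMod N → M n) (w : ZMod N → E n) : Submodule ℝ (ZMod N → E n) := VV p ⊓ LinearMap.ker (xi w)

end

namespace Setup
variable (G : Setup n)

/-- the generating function in the charts at `a`, `b` -/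
def hS (a b : E n) (q : E n × E n) : ℝ := G.S (Ph a q.1, Ph b q.2)

/-- the discrete energy in the chart at `p` -/
def FF {N : ℕ} [NeZero N] (p : ZMod N → M n) (y : ZMod N → E n) : ℝ :=
  N * ∑ k, G.hS (p k) (p (k + 1)) (y k, y (k + 1))

/-- base polygon -/
def bp (i : G.ι) (m N : ℕ) : ZMod N → M n := G.nodes N (G.geo i m true 0)

/-- direction of the geodesic at the nodes -/
def bw (i : G.ι) (m N : ℕ) : ZMod N → E n := fun k => G.c' i (m * ((k.val : ℝ) / N))

/-- local rank bound on the slice -/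
def SL (i : G.ι) (m N : ℕ) [NeZero N] (R : ℕ) : Prop :=
  LR (fun v : V0 (G.bp i m N) (G.bw i m N) => G.FF (G.bp i m N) v) {0} ((m * G.ℓ i) ^ 2) R

/-- square of the level -/
def T2 (γ : G.Loop) : ℝ := γ.T ^ 2

end Setup

end Crest.Agent.R231
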