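import Crest.Agent.R231.GM.Model

/-! R231, block GM: the kernel of the Hessian has bounded period.
`P z = c (z / N₀)`, `D z = fderiv (fderiv (hS (P z) (P (z+1)))) 0`.  `Sol` = sequences `y : ℤ → E n` with `y z ⊥ P z` and
`D (z-1) (y (z-1), y z) (0,w) + D z (y z, y (z+1)) (w,0) = 0` for `w ⊥ P z`.  A periodic solution with `y 0 = y 1 = 0` vanishes
(`hS_mixed`, `S_mixed`, induction forward).  `Per q` = solutions of period `q N₀` has `finrank ≤ 2(n+1)`; take `M₀` of maximal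
finrank; `Per q ≤ Per (q M₀) = Per M₀`. -/

set_option autoImplicit false
set_option linter.unusedVariables false
set_option linter.unusedSectionVars false
set_option linter.unusedSimpArgs false
open Set
open scoped Classical ContDiff RealInnerProductSpace

noncomputable section
namespace Crest.Agent.R231

theorem ker_abs {V : Type} [AddCommGroup V] [Module ℝ V] [FiniteDimensional ℝ V] (S : Submodule ℝ (ℤ → V)) {N₀ : ℕ}
    (hN : 0 < N₀) (hS : ∀ y ∈ S, ∀ z, y (z - 1) = 0 → y z = 0 → y (z + 1) = 0) :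
    ∃ M₀ : ℕ, 0 < M₀ ∧ ∀ m : ℕ, 0 < m → ∀ y ∈ S, Function.Periodic y ((m * N₀ : ℕ) : ℤ) →
      Function.Periodic y ((M₀ * N₀ : ℕ) : ℤ) := by
  let Per : ℕ → Submodule ℝ (ℤ → V) := fun q =>
    { carrier := {y | y ∈ S ∧ Function.Periodic y ((q * N₀ : ℕ) : ℤ)}
      zero_mem' := ⟨zero_mem _, fun _ => rfl⟩
      add_mem' := fun ha hb => ⟨add_mem ha.1 hb.1, ha.2.add hb.2⟩
      smul_mem' := fun c a ha => ⟨S.smul_mem c ha.1, ha.2.smul c⟩ }
  let ev : (ℤ → V) →ₗ[ℝ] V × V := (LinearMap.proj 0).prod (LinearMap.proj 1)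
  have hinj : ∀ q, 0 < q → Function.Injective (ev.domRestrict (Per q)) := fun q hq => by
    rw [injective_iff_map_eq_zero]
    intro y hy
    have h0 : y.1 0 = 0 := congrArg Prod.fst hy
    have h1 : y.1 1 = 0 := congrArg Prod.snd hy
    have h2 : ∀ j : ℕ, y.1 j = 0 ∧ y.1 (j + 1) = 0 := fun j => by
      induction j with
      | zero => exact ⟨h0, h1⟩
      | succ j ih =>
        push_cast
        exact ⟨ih.2, hS _ y.2.1 _ (by rw [add_sub_cancel_right]; exact ih.1) ih.2⟩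
    refine Subtype.ext (funext fun z => ?_)
    have h3 := y.2.2.int_mul |z| z
    have h4 : (1 : ℤ) ≤ ((q * N₀ : ℕ) : ℤ) := by exact_mod_cast Nat.mul_pos hq hN
    obtain ⟨j, hj⟩ := Int.eq_ofNat_of_zero_le (a := z + |z| * ((q * N₀ : ℕ) : ℤ))
      (by nlinarith [neg_abs_le z, abs_nonneg z])
    simp only [Int.cast_id] at h3
    rw [← h3, hj]
    exact (h2 j).1
  have hfin : ∀ q, 0 < q → FiniteDimensional ℝ (Per q) := fun q hq => .of_injective _ (hinj q hq)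
  have hbd : BddAbove {d | ∃ q, 0 < q ∧ Module.finrank ℝ (Per q) = d} :=
    ⟨Module.finrank ℝ (V × V), by
      rintro _ ⟨q, hq, rfl⟩
      exact LinearMap.finrank_le_finrank_of_injective (hinj q hq)⟩
  obtain ⟨M₀, hM₀, hM⟩ := Nat.sSup_mem (s := {d | ∃ q, 0 < q ∧ Module.finrank ℝ (Per q) = d})
    ⟨_, 1, one_pos, rfl⟩ hbd
  refine ⟨M₀, hM₀, fun m hm y hy hp => ?_⟩
  have hle : ∀ a b : ℕ, Per a ≤ Per (b * a) := fun a b y hy => ⟨hy.1, by
    have := hy.2.nat_mul b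
    rwa [← Nat.cast_mul, ← mul_assoc] at this⟩
  have := hfin _ (Nat.mul_pos hm hM₀)
  have h1 : Per M₀ = Per (m * M₀) := Submodule.eq_of_le_of_finrank_le (hle _ _)
    (hM ▸ le_csSup hbd ⟨_, Nat.mul_pos hm hM₀, rfl⟩)
  have h2 : y ∈ Per (m * M₀) := mul_comm M₀ m ▸ hle m M₀ ⟨hy, hp⟩
  exact (h1 ▸ h2 : y ∈ Per M₀).2

namespace Setup
variable {n : ℕ} (G : Setup n)

theorem ker_per (i : G.ι) (N₀ : ℕ) (h : G.ℓ i < N₀ * G.δ) : ∃ M₀ : ℕ, 0 < M₀ ∧
    ∀ (m N : ℕ) [NeZero N], N = m * N₀ → ∀ y ∈ VV (G.bp i m N),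
      (∀ v ∈ VV (G.bp i m N), fderiv ℝ (fderiv ℝ (G.FF (G.bp i m N))) 0 y v = 0) →
      ∀ k, y (k + ((Nat.gcd m M₀ * N₀ : ℕ) : ZMod N)) = y k := by
  have hN₀ : 0 < N₀ := Nat.pos_of_ne_zero fun h0 => by
    have := G.ℓ_pos i
    simp [h0] at h
    linarith
  have hr : (0 : ℝ) < N₀ := by exact_mod_cast hN₀
  let P : ℤ → M n := fun z => G.c i (z / N₀)
  let D : ℤ → E n × E n →L[ℝ] E n × E n →L[ℝ] ℝ := fun z => fderiv ℝ (fderiv ℝ (G.hS (P z) (P (z + 1)))) 0
  let S : Submodule ℝ (ℤ → E n) :=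
    { carrier := {y | ∀ z, ⟪y z, (P z : E n)⟫ = 0 ∧ ∀ w, ⟪w, (P z : E n)⟫ = 0 →
        D (z - 1) (y (z - 1), y z) (0, w) + D z (y z, y (z + 1)) (w, 0) = 0}
      zero_mem' := fun z => ⟨by simp, fun w _ => by simp [← Prod.zero_eq_mk]⟩
      add_mem' := fun {a b} ha hb z => ⟨by simp [inner_add_left, (ha z).1, (hb z).1], fun w hw => by
        have h1 := (ha z).2 w hw
        have h2 := (hb z).2 w hw
        simp only [Pi.add_apply, ← Prod.mk_add_mk, map_add, add_apply]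
        linarith⟩
      smul_mem' := fun c a ha z => ⟨by simp [inner_smul_left, (ha z).1], fun w hw => by
        have h1 := (ha z).2 w hw
        simp only [Pi.smul_apply, ← Prod.smul_mk, map_smul, smul_apply, smul_eq_mul]
        rw [← mul_add, h1, mul_zero]⟩ }
  obtain ⟨M₀, hM₀, hM⟩ := ker_abs S hN₀ fun y hy z h1 h2 => by
    refine G.S_mixed (P z) (P (z + 1)) ((G.c_lip i _ _).trans_lt ?_) _ (hy (z + 1)).1 fun w hw => ?_
    · rw [show (z : ℝ) / N₀ - ((z + 1 : ℤ) : ℝ) / N₀ = -(1 / N₀) by push_cast; ring, abs_neg,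
        abs_of_pos (by positivity), mul_one_div, div_lt_iff₀' hr]
      exact h
    · have h3 := (hy z).2 w hw
      rw [h1, h2, ← Prod.zero_eq_mk, map_zero, zero_apply, zero_add] at h3
      rw [← G.hS_mixed]
      exact h3
  refine ⟨M₀, hM₀, fun m N _ hN y hy hk => ?_⟩
  have hm : 0 < m := Nat.pos_of_ne_zero fun h0 => NeZero.ne N (by rw [hN, h0, zero_mul])
  have hp : ∀ z : ℤ, G.bp i m N (z : ZMod N) = P z := fun z => by
    rw [bp_intCast, hN]
    congr 1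
    have : (0 : ℝ) < m := by exact_mod_cast hm
    push_cast
    field_simp
  have h1 : (fun z : ℤ => y (z : ZMod N)) ∈ S := fun z => ⟨hp z ▸ hy _, fun w hw => by
    have h2 := hk (Pi.single (z : ZMod N) w) fun j => by
      by_cases hj : j = z
      · rw [hj, Pi.single_eq_same, hp, hw]
      · simp [Pi.single_eq_of_ne hj]
    rw [fderiv2_FF, model_single fun j => fderiv ℝ (fderiv ℝ (G.hS (G.bp i m N j) (G.bp i m N (j + 1))))
      ((0 : ZMod N → E n) j, (0 : ZMod N → E n) (j + 1)) (y j, y (j + 1))] at h2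
    have h3 := (mul_eq_zero.1 h2).resolve_left (Nat.cast_ne_zero.2 (NeZero.ne N))
    have e1 := hp (z - 1)
    have e2 := hp (z + 1)
    push_cast at e1 e2
    simp only [Pi.zero_apply, ← Prod.zero_eq_mk, sub_add_cancel, e1, e2, hp] at h3
    simp only [D, sub_add_cancel]
    push_cast
    exact h3⟩
  have h2 : Function.Periodic (fun z : ℤ => y (z : ZMod N)) ((m * N₀ : ℕ) : ℤ) := fun z => by
    rw [← hN]
    simp
  have h3 := (h2.int_mul (Nat.gcdA m M₀)).add_period ((hM m hm _ h1 h2).int_mul (Nat.gcdB m M₀))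
  intro k
  have h4 := h3 k.cast
  have e : (Nat.gcdA m M₀ : ℤ) * ((m * N₀ : ℕ) : ℤ) + (Nat.gcdB m M₀ : ℤ) * ((M₀ * N₀ : ℕ) : ℤ) =
      ((Nat.gcd m M₀ * N₀ : ℕ) : ℤ) := by
    rw [Nat.cast_mul (Nat.gcd m M₀), Nat.gcd_eq_gcd_ab]
    push_cast
    ring
  simp only [Int.cast_id, e] at h4
  rwa [Int.cast_add, ZMod.intCast_zmod_cast, Int.cast_natCast] at h4

end Setup

end Crest.Agent.R231
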