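import Crest.Agent.R231.GM.Defs

/-! R231, block GM: formal properties of `LR` and `NH`. -/

set_option autoImplicit false
set_option linter.unusedVariables false
set_option linter.unusedSectionVars false
set_option linter.unusedSimpArgs false
open Set
open scoped Classical ContDiff RealInnerProductSpace

noncomputable section
namespace Crest.Agent.R231

variable {X Y : Type} [TopologicalSpace X] [TopologicalSpace Y] {f : X → ℝ} {g : Y → ℝ} {C : Set X} {a : ℝ} {R : ℕ}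

/-- The rank only depends on compactly supported families: finitely many classes (`rank_le`, or
`Module.rank` of a directed union) have representatives with a common compact support (`exists_compact`). -/
theorem RankLE.of_compact {A B A' B' : Set X}
    (h : ∀ K L, IsCompact K → K ⊆ A → IsCompact L → L ⊆ B → RankLE K L A' B' R) : RankLE A B A' B' R := by
  refine rank_le fun s hs => ?_
  choose c hc1 hc2 using fun x : (Cyc A B).map (Bdy A' B').mkQ => x.2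
  choose K hK1 hK2 hK3 using fun x => exists_compact (hc1 x).1
  choose L hL1 hL2 hL3 using fun x => exists_compact (hc1 x).2
  have h1 := h (⋃ x ∈ s, K x) (⋃ x ∈ s, L x) (s.isCompact_biUnion fun x _ => hK1 x)
    (iUnion₂_subset fun x _ => hK2 x) (s.isCompact_biUnion fun x _ => hL1 x) (iUnion₂_subset fun x _ => hL2 x)
  have hle : (Cyc (⋃ x ∈ s, K x) (⋃ x ∈ s, L x)).map (Bdy A' B').mkQ ≤ (Cyc A B).map (Bdy A' B').mkQ :=
    Submodule.map_mono (Cyc_mono (iUnion₂_subset fun x _ => hK2 x) (iUnion₂_subset fun x _ => hL2 x))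
  let v : s → (Cyc (⋃ x ∈ s, K x) (⋃ x ∈ s, L x)).map (Bdy A' B').mkQ := fun x =>
    ⟨x.1.1, c x.1, ⟨sup_mono (subset_biUnion_of_mem (u := K) x.2) (hK3 x.1),
      sup_mono (subset_biUnion_of_mem (u := L) x.2) (hL3 x.1)⟩, hc2 x.1⟩
  have hv : LinearIndependent F2 v := LinearIndependent.of_comp (Submodule.inclusion hle) hs
  have h2 := hv.cardinal_le_rank.trans h1
  simpa using h2

theorem LR.mono (h : LR f C a R) {R' : ℕ} (hR : R ≤ R') : LR f C a R' := by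
  intro U hU hC
  obtain ⟨O, h1, h2, b₀, h3, h4⟩ := h U hU hC
  exact ⟨O, h1, h2, b₀, h3, fun b h5 h6 => (h4 b h5 h6).mono subset_rfl subset_rfl subset_rfl subset_rfl hR⟩

/-- one may take `O ⊆ U` -/
theorem LR.sub (h : LR f C a R) {U : Set X} (hU : IsOpen U) (hC : C ⊆ U) :
    ∃ O, IsOpen O ∧ C ⊆ O ∧ O ⊆ U ∧ ∃ b₀, a < b₀ ∧ ∀ b, a < b → b ≤ b₀ →
      RankLE (O ∩ Sb f b) (O ∩ Sb f a) (U ∩ Sb f b) (U ∩ Sb f a) R := by
  obtain ⟨O, h1, h2, b₀, h3, h4⟩ := h U hU hC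
  exact ⟨O ∩ U, h1.inter hU, subset_inter h2 hC, inter_subset_right, b₀, h3, fun b h5 h6 =>
    (h4 b h5 h6).mono (inter_subset_inter_left _ inter_subset_left) (inter_subset_inter_left _ inter_subset_left)
      subset_rfl subset_rfl le_rfl⟩

theorem LR.empty (f : X → ℝ) (a : ℝ) : LR f ∅ a 0 := by
  intro U _ _
  refine ⟨∅, isOpen_empty, subset_rfl, a + 1, lt_add_one a, fun b _ _ => ?_⟩
  rw [empty_inter]
  exact RankLE.empty _ _ _

/-- Mayer-Vietoris.  Given `U`, take `O₁, O₂ ⊆ U` for `C₁, C₂`, `O₀ ⊆ O₁ ∩ O₂` for `C₁ ∩ C₂` with target `O₁ ∩ O₂`;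
separate the disjoint closed sets `C₁ \ O₀`, `C₂ \ O₀` by open `D₁, D₂`; `V_j = (D_j ∪ O₀) ∩ O_j`, `V₁ ∩ V₂ ⊆ O₀`;
`RankLE.mv` with `A = (V₁ ∪ V₂) ∩ Sb f b`. -/
theorem LR.union [NormalSpace X] {C₁ C₂ : Set X} {R₀ R₁ R₂ : ℕ} (hC₁ : IsClosed C₁) (hC₂ : IsClosed C₂)
    (h₀ : LR f (C₁ ∩ C₂) a R₀) (h₁ : LR f C₁ a R₁) (h₂ : LR f C₂ a R₂) : LR f (C₁ ∪ C₂) a (R₀ + R₁ + R₂) := by
  intro U hU hC
  obtain ⟨O₁, o₁, c₁, u₁, b₁, hb₁, k₁⟩ := h₁.sub hU (subset_union_left.trans hC)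
  obtain ⟨O₂, o₂, c₂, u₂, b₂, hb₂, k₂⟩ := h₂.sub hU (subset_union_right.trans hC)
  obtain ⟨O₀, o₀, c₀, u₀, b₀, hb₀, k₀⟩ := h₀.sub (o₁.inter o₂) (inter_subset_inter c₁ c₂)
  obtain ⟨D₁, D₂, d₁, d₂, e₁, e₂, hD⟩ := normal_separation (hC₁.sdiff o₀) (hC₂.sdiff o₀)
    (disjoint_left.2 fun x h1 h2 => h1.2 (c₀ ⟨h1.1, h2.1⟩))
  have m : ∀ {C D O : Set X}, C \ O₀ ⊆ D → C ⊆ O → C ⊆ (D ∪ O₀) ∩ O := fun h1 h2 x hx =>
    ⟨(em (x ∈ O₀)).elim Or.inr fun h3 => Or.inl (h1 ⟨hx, h3⟩), h2 hx⟩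
  have j : ∀ e, ((D₁ ∪ O₀) ∩ O₁ ∪ (D₂ ∪ O₀) ∩ O₂) ∩ Sb f e ∩ ((D₁ ∪ O₀) ∩ O₁) ∩ ((D₂ ∪ O₀) ∩ O₂) ⊆ O₀ ∩ Sb f e :=
    fun e x hx => ⟨hx.1.2.1.elim (fun h1 => hx.2.1.elim (fun h2 => (disjoint_left.1 hD h1 h2).elim) id) id,
      hx.1.1.2⟩
  have jU : ∀ e, ((D₁ ∪ O₀) ∩ O₁ ∪ (D₂ ∪ O₀) ∩ O₂) ∩ Sb f e ⊆ U ∩ Sb f e := fun e x hx =>
    ⟨hx.1.elim (fun h1 => u₁ h1.2) fun h1 => u₂ h1.2, hx.2⟩
  refine ⟨(D₁ ∪ O₀) ∩ O₁ ∪ (D₂ ∪ O₀) ∩ O₂, ((d₁.union o₀).inter o₁).union ((d₂.union o₀).inter o₂),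
    union_subset_union (m e₁ c₁) (m e₂ c₂), min b₀ (min b₁ b₂), lt_min hb₀ (lt_min hb₁ hb₂), fun b hab hb => ?_⟩
  rw [le_min_iff, le_min_iff] at hb
  refine RankLE.mv ((d₁.union o₀).inter o₁) ((d₂.union o₀).inter o₂) inter_subset_left
    (inter_subset_inter_right _ fun x hx => lt_trans hx hab)
    ((k₀ b hab hb.1).mono (j b) (j a) subset_rfl subset_rfl le_rfl) (k₁ b hab hb.2.1) (k₂ b hab hb.2.2)
    (fun x hx => mem_inter hx.2.2 hx.1.2) (inter_subset_inter_left _ inter_subset_left)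
    (fun x hx => mem_inter hx.2.2 hx.1.2) (inter_subset_inter_left _ inter_subset_left)
    (fun x hx => mem_inter hx.2.2 hx.1.2) (inter_subset_inter_left _ inter_subset_right)
    (fun x hx => mem_inter hx.2.2 hx.1.2) (inter_subset_inter_left _ inter_subset_right) (jU b) (jU a)

theorem LR.biUnion [NormalSpace X] {ι : Type} (s : Finset ι) {D : ι → Set X} (hD : ∀ i ∈ s, IsClosed (D i))
    (hd : ∀ i ∈ s, ∀ j ∈ s, i ≠ j → Disjoint (D i) (D j)) (h : ∀ i ∈ s, LR f (D i) a R) :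
    LR f (⋃ i ∈ s, D i) a (s.card * R) := by
  induction s using Finset.induction_on with
  | empty => simpa using LR.empty f a
  | insert i s hi ih =>
    have h1 := ih (fun j hj => hD j (Finset.mem_insert_of_mem hj))
      (fun j hj k hk => hd j (Finset.mem_insert_of_mem hj) k (Finset.mem_insert_of_mem hk))
      fun j hj => h j (Finset.mem_insert_of_mem hj)
    have h2 : D i ∩ ⋃ j ∈ s, D j = ∅ := by
      rw [← disjoint_iff_inter_eq_empty, disjoint_iUnion₂_right]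
      exact fun j hj => hd i (Finset.mem_insert_self _ _) j (Finset.mem_insert_of_mem hj)
        (by rintro rfl; exact hi hj)
    have h3 := LR.union (hD i (Finset.mem_insert_self _ _))
      (s.finite_toSet.isClosed_biUnion fun j hj => hD j (Finset.mem_insert_of_mem hj))
      (h2 ▸ LR.empty f a) (h i (Finset.mem_insert_self _ _)) h1
    rw [Finset.set_biUnion_insert, Finset.card_insert_of_notMem hi]
    exact h3.mono (le_of_eq (by ring))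

theorem LR.const_mul (h : LR f C a R) {c : ℝ} (hc : 0 < c) : LR (fun x => c * f x) C (c * a) R := by
  intro U hU hC
  obtain ⟨O, h1, h2, b₀, h3, h4⟩ := h U hU hC
  have e : ∀ b, Sb (fun x => c * f x) (c * b) = Sb f b := fun b => by
    ext x
    exact mul_lt_mul_iff_right₀ hc
  refine ⟨O, h1, h2, c * b₀, mul_lt_mul_of_pos_left h3 hc, fun b h5 h6 => ?_⟩
  have h7 := h4 (b / c) (by rwa [lt_div_iff₀' hc]) (by rwa [div_le_iff₀' hc])
  rw [← e, ← e a, mul_div_cancel₀ _ hc.ne'] at h7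
  exact h7

/-- transport by a homeomorphism (`RankLE.of_surj` with `ψ = mp e`) -/
theorem LR.homeo (e : X ≃ₜ Y) (hf : ∀ x, g (e x) = f x) (h : LR f C a R) : LR g (e '' C) a R := by
  intro U hU hC
  obtain ⟨O, h1, h2, b₀, h3, h4⟩ := h (e ⁻¹' U) (hU.preimage e.continuous) (image_subset_iff.1 hC)
  have m1 : ∀ b, MapsTo e.symm (e.symm ⁻¹' O ∩ Sb g b) (O ∩ Sb f b) := fun b y hy =>
    ⟨hy.1, show f _ < b by rw [← hf, e.apply_symm_apply]; exact hy.2⟩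
  have m2 : ∀ b, MapsTo e (e ⁻¹' U ∩ Sb f b) (U ∩ Sb g b) := fun b x hx =>
    ⟨hx.1, show g _ < b by rw [hf]; exact hx.2⟩
  refine ⟨e.symm ⁻¹' O, h1.preimage e.symm.continuous, ?_, b₀, h3, fun b h5 h6 => ?_⟩
  · rintro _ ⟨x, hx, rfl⟩
    simpa using h2 hx
  · refine RankLE.of_surj (mp e) (fun c hc => ⟨mp e.symm c,
      mp_Cyc e.symm.continuous.continuousOn (m1 b) (m1 a) hc, ?_⟩)
      (fun y _ hy => mp_Bdy e.continuous.continuousOn (m2 b) (m2 a) hy) (h4 b h5 h6)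
    rw [mp_comp hc.1 e.symm.continuous.continuousOn]
    simp only [Homeomorph.apply_symm_apply, mp_id, add_self, zero_mem]

/-- `O = {x ∈ O₀ | ∀ u ∈ [0,1], H (u,x) ∈ U}` is open (tube lemma); `hty_Bdy`, `mp_congr`. -/
theorem NH.of_hty {F₀ F₁ : X → X} {O₀ : Set X} (hO : IsOpen O₀) (hC : C ⊆ O₀) {H : ℝ × X → X}
    (hH : ContinuousOn H (Icc 0 1 ×ˢ O₀)) (h0 : ∀ x ∈ O₀, H (0, x) = F₀ x) (h1 : ∀ x ∈ O₀, H (1, x) = F₁ x)
    (hCC : ∀ x ∈ C, ∀ u ∈ Icc (0 : ℝ) 1, H (u, x) ∈ C)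
    (hf : ∀ x ∈ O₀, ∀ u ∈ Icc (0 : ℝ) 1, f (H (u, x)) ≤ f x) : NH f C F₀ F₁ := by
  intro U hU hCU
  refine ⟨{x | x ∈ O₀ ∧ ∀ u ∈ Icc (0 : ℝ) 1, H (u, x) ∈ U}, isOpen_iff_mem_nhds.2 fun x hx => ?_,
    fun x hx => ⟨hC hx, fun u hu => hCU (hCC x hx u hu)⟩, fun a b c hc => ?_⟩
  · have h2 := isCompact_Icc.eventually_forall_of_forall_eventually (x₀ := x)
      (P := fun y u => (u, y) ∈ Icc (0 : ℝ) 1 ×ˢ O₀ → H (u, y) ∈ U) (K := Icc (0 : ℝ) 1) fun u hu => by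
        have h3 := (hH (u, x) ⟨hu, hx.1⟩).eventually (hU.mem_nhds (hx.2 u hu))
        rw [eventually_nhdsWithin_iff] at h3
        exact (continuous_swap.tendsto (x, u)).eventually h3
    filter_upwards [h2, hO.mem_nhds hx.1] with y h3 h4
    exact ⟨h4, fun u hu => h3 u hu ⟨hu, h4⟩⟩
  · have m : ∀ e, MapsTo H (Icc 0 1 ×ˢ ({x | x ∈ O₀ ∧ ∀ u ∈ Icc (0 : ℝ) 1, H (u, x) ∈ U} ∩ Sb f e))
        (U ∩ Sb f e) := fun e q hq => ⟨hq.2.1.2 _ hq.1, (hf _ hq.2.1.1 _ hq.1).trans_lt hq.2.2⟩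
    have h2 := hty_Bdy (hH.mono (prod_mono subset_rfl fun x hx => hx.1.1)) (m b) (m a) hc
    rwa [mp_congr hc.1 fun x hx => h0 x hx.1.1, mp_congr hc.1 fun x hx => h1 x hx.1.1] at h2

theorem NH.trans {F₀ F₁ F₂ : X → X} (h : NH f C F₀ F₁) (h' : NH f C F₁ F₂) : NH f C F₀ F₂ := by
  intro U hU hC
  obtain ⟨O₁, o₁, c₁, k₁⟩ := h U hU hC
  obtain ⟨O₂, o₂, c₂, k₂⟩ := h' U hU hC
  refine ⟨O₁ ∩ O₂, o₁.inter o₂, subset_inter c₁ c₂, fun a b c hc => ?_⟩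
  have h1 := add_mem (k₁ a b c (Cyc_mono (inter_subset_inter_left _ inter_subset_left)
    (inter_subset_inter_left _ inter_subset_left) hc)) (k₂ a b c (Cyc_mono
      (inter_subset_inter_left _ inter_subset_right) (inter_subset_inter_left _ inter_subset_right) hc))
  rwa [add_assoc, ← add_assoc (mp F₁ c), add_self, zero_add] at h1

/-- The identity factors, up to homotopy near `C`, through a neighbourhood of `y₀` in `Y`.
`RankLE.of_surj` with `ψ = mp β`, `y = mp α c`. -/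
theorem LR.transfer {y₀ : Y} {α : X → Y} {β : Y → X} {O₀ : Set X} {P₀ : Set Y} (hO : IsOpen O₀) (hC : C ⊆ O₀)
    (hP : IsOpen P₀) (hy : y₀ ∈ P₀) (hα : ContinuousOn α O₀) (hβ : ContinuousOn β P₀)
    (hαC : ∀ x ∈ C, α x = y₀) (hβC : β y₀ ∈ C) (h1 : ∀ x ∈ O₀, g (α x) ≤ f x) (h2 : ∀ y ∈ P₀, f (β y) ≤ g y)
    (hN : NH f C (fun x => x) (fun x => β (α x))) (h : LR g {y₀} a R) : LR f C a R := by
  intro U hU hCU
  obtain ⟨Q, q₁, q₂, b₀, hb₀, k⟩ := h (P₀ ∩ β ⁻¹' U) (hβ.isOpen_inter_preimage hP hU)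
    (singleton_subset_iff.2 ⟨hy, hCU hβC⟩)
  obtain ⟨O₁, o₁, c₁, k₁⟩ := hN U hU hCU
  have m1 : ∀ e, MapsTo α (O₁ ∩ (O₀ ∩ α ⁻¹' Q) ∩ Sb f e) (Q ∩ Sb g e) := fun e x hx =>
    ⟨hx.1.2.2, (h1 x hx.1.2.1).trans_lt hx.2⟩
  have m2 : ∀ e, MapsTo β (P₀ ∩ β ⁻¹' U ∩ Sb g e) (U ∩ Sb f e) := fun e y hy =>
    ⟨hy.1.2, (h2 y hy.1.1).trans_lt hy.2⟩
  refine ⟨O₁ ∩ (O₀ ∩ α ⁻¹' Q), o₁.inter (hα.isOpen_inter_preimage hO q₁), subset_inter c₁ fun x hx =>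
    ⟨hC hx, show α x ∈ Q by rw [hαC x hx]; exact q₂ rfl⟩, b₀, hb₀, fun b h3 h4 => ?_⟩
  have hα' : ContinuousOn α (O₁ ∩ (O₀ ∩ α ⁻¹' Q) ∩ Sb f b) := hα.mono fun x hx => hx.1.2.1
  refine RankLE.of_surj (mp β) (fun c hc => ⟨mp α c, mp_Cyc hα' (m1 b) (m1 a) hc, ?_⟩)
    (fun y _ hy => mp_Bdy (hβ.mono fun x hx => hx.1.1) (m2 b) (m2 a) hy) (k b h3 h4)
  have h5 := k₁ a b c (Cyc_mono (inter_subset_inter_left _ inter_subset_left)
    (inter_subset_inter_left _ inter_subset_left) hc)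
  rwa [mp_id, ← mp_comp hc.1 hα'] at h5

/-- the unique minimiser over a compact set depends continuously on the parameter -/
theorem continuousOn_argmin {P : Type} [MetricSpace P] {K : Set P} (hK : IsCompact K) {A : Set X} {F : X × P → ℝ}
    (hF : ContinuousOn F (A ×ˢ K)) {p : X → P} (hp : ∀ x ∈ A, p x ∈ K)
    (hmin : ∀ x ∈ A, ∀ u ∈ K, u ≠ p x → F (x, p x) < F (x, u)) : ContinuousOn p A := by
  intro x hx
  refine Metric.tendsto_nhds.2 fun ε hε => ?_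
  have hK' : IsCompact (K \ Metric.ball (p x) ε) := hK.diff Metric.isOpen_ball
  have h1 := hK'.eventually_forall_of_forall_eventually (x₀ := x)
    (P := fun y u => (y, u) ∈ A ×ˢ K → F (y, p x) < F (y, u)) fun u hu => by
      have h2 : ContinuousWithinAt (fun z : X × P => F (z.1, p x)) (A ×ˢ K) (x, u) :=
        (hF.comp (f := fun z : X × P => (z.1, p x)) (by fun_prop) fun z hz => ⟨hz.1, hp x hx⟩) (x, u) ⟨hx, hu.1⟩
      have h3 := h2.eventually_lt (hF (x, u) ⟨hx, hu.1⟩) (hmin x hx u hu.1 fun h => hu.2 (by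
        rw [h]; exact Metric.mem_ball_self hε))
      exact eventually_nhdsWithin_iff.1 h3
  filter_upwards [mem_nhdsWithin_of_mem_nhds h1, self_mem_nhdsWithin] with y h2 hy
  by_contra hn
  have h3 := h2 (p y) ⟨hp y hy, hn⟩ ⟨hy, hp y hy⟩
  by_cases h4 : p x = p y
  · rw [h4] at h3
    exact lt_irrefl _ h3
  · exact lt_asymm h3 (hmin y hy _ (hp x hx) h4)

end Crest.Agent.R231
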