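import Crest.Agent.R231.GM.Defs

/-! R231, block GM: elementary properties of the discrete model. -/

set_option autoImplicit false
set_option linter.unusedVariables false
set_option linter.unusedSectionVars false
set_option linter.unusedSimpArgs false
open Set
open scoped Classical ContDiff RealInnerProductSpace

noncomputable section
namespace Crest.Agent.R231

variable {n : ℕ}

theorem contDiff_th : ContDiff ℝ ∞ th := exists_th.choose_spec.1
theorem th_eq {s : ℝ} (h : |s| ≤ 1 / 2) : th s = √(1 - s) := exists_th.choose_spec.2 s h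

theorem contDiff_Ph (a : E n) : ContDiff ℝ ∞ (Ph a) := by
  exact ((contDiff_th.comp (contDiff_norm_sq ℝ)).smul contDiff_const).add contDiff_id

theorem Ph_zero (a : E n) : Ph a 0 = a := by
  simp [Ph, th_eq]

theorem model_hasFDerivAt (a v : E n) : HasFDerivAt (Ph a)
    ((deriv th (‖v‖ ^ 2) • (2 • innerSL ℝ v)).smulRight a + ContinuousLinearMap.id ℝ (E n)) v :=
  (((contDiff_th.differentiable (by simp) _).hasDerivAt.comp_hasFDerivAt v
    (hasStrictFDerivAt_norm_sq v).hasFDerivAt).smul_const a).add (hasFDerivAt_id v)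

theorem model_norm (a : M n) : ‖(a : E n)‖ = 1 := by simp

theorem model_sq {v : E n} (h : ‖v‖ ≤ 1 / 2) : ‖v‖ ^ 2 ≤ 1 / 4 := by nlinarith [norm_nonneg v]

theorem model_abs {v : E n} (h : ‖v‖ ≤ 1 / 2) : |‖v‖ ^ 2| ≤ 1 / 2 := by
  rw [abs_of_nonneg (sq_nonneg _)]
  linarith [model_sq h]

theorem model_proj (v : E n) (a : M n) : ‖v - ⟪v, (a : E n)⟫ • (a : E n)‖ ^ 2 = ‖v‖ ^ 2 - ⟪v, (a : E n)⟫ ^ 2 := by
  rw [norm_sub_sq_real, inner_smul_right, norm_smul, model_norm, mul_one, Real.norm_eq_abs, sq_abs]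
  ring

theorem hasFDerivAt_Ph_zero (a : E n) : HasFDerivAt (Ph a) (ContinuousLinearMap.id ℝ (E n)) 0 := by
  refine (model_hasFDerivAt a 0).congr_fderiv ?_
  ext v
  simp

theorem norm_Ph (a : M n) {v : E n} (hv : ⟪v, (a : E n)⟫ = 0) (h : ‖v‖ ≤ 1 / 2) : ‖Ph (a : E n) v‖ = 1 := by
  have h1 := model_sq h
  rw [← sq_eq_sq₀ (norm_nonneg _) zero_le_one, Ph, norm_add_sq_real, norm_smul, inner_smul_left,
    real_inner_comm, hv, model_norm a, th_eq (model_abs h), Real.norm_eq_abs, mul_one, sq_abs,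
    Real.sq_sqrt (by linarith)]
  simp

/-- the differential of the chart maps `a^⊥` onto the tangent space: take `v' = w - ⟪w,a⟫ a` -/
theorem fderiv_Ph_surj (a : M n) {v : E n} (hv : ⟪v, (a : E n)⟫ = 0) (h : ‖v‖ ≤ 1 / 2) {w : E n}
    (hw : ⟪w, Ph (a : E n) v⟫ = 0) : ∃ v', ⟪v', (a : E n)⟫ = 0 ∧ fderiv ℝ (Ph (a : E n)) v v' = w := by
  have h1 := model_sq h
  have hp : 0 < √(1 - ‖v‖ ^ 2) := Real.sqrt_pos.2 (by linarith)
  have hd : deriv th (‖v‖ ^ 2) = -1 / (2 * √(1 - ‖v‖ ^ 2)) := by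
    have e : th =ᶠ[nhds (‖v‖ ^ 2)] fun s => √(1 - s) := by
      filter_upwards [Ioo_mem_nhds (show -(1 / 2 : ℝ) < ‖v‖ ^ 2 by nlinarith [sq_nonneg ‖v‖])
        (show ‖v‖ ^ 2 < 1 / 2 by linarith)] with s hs
      exact th_eq (abs_le.2 ⟨hs.1.le, hs.2.le⟩)
    rw [e.deriv_eq]
    exact (((hasDerivAt_id' _).const_sub 1).sqrt (by linarith)).deriv
  refine ⟨w - ⟪w, (a : E n)⟫ • (a : E n), ?_, ?_⟩
  · rw [inner_sub_left, inner_smul_left, real_inner_self_eq_norm_sq, model_norm a]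
    simp
  · rw [Ph, inner_add_right, inner_smul_right, th_eq (model_abs h)] at hw
    rw [(model_hasFDerivAt _ v).fderiv, hd]
    simp only [add_apply, ContinuousLinearMap.smulRight_apply,
      smul_apply, ContinuousLinearMap.id_apply, innerSL_apply_apply, inner_sub_right,
      inner_smul_right, hv, mul_zero, sub_zero, smul_eq_mul, nsmul_eq_mul]
    have h2 : -1 / (2 * √(1 - ‖v‖ ^ 2)) * ((2 : ℕ) * ⟪v, w⟫) = ⟪w, (a : E n)⟫ := by
      rw [real_inner_comm w v]
      push_cast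
      field_simp
      linarith
    rw [h2, add_sub_cancel]

theorem toM_val {v : E n} (h : ‖v‖ = 1) : (toM v : E n) = v := by
  rw [toM, dif_pos h]

theorem toSub_val {A : Type} [AddCommGroup A] [Module ℝ A] {S : Submodule ℝ A} {v : A} (h : v ∈ S) :
    (toSub S v : A) = v := by
  rw [toSub, dif_pos h]

theorem continuousOn_toSub {A X : Type} [NormedAddCommGroup A] [NormedSpace ℝ A] [TopologicalSpace X]
    {S : Submodule ℝ A} {g : X → A} {O : Set X} (hg : ContinuousOn g O) (h : ∀ x ∈ O, g x ∈ S) :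
    ContinuousOn (fun x => toSub S (g x)) O := by
  rw [Topology.IsInducing.subtypeVal.continuousOn_iff]
  exact hg.congr fun x hx => toSub_val (h x hx)

variable {N : ℕ} [NeZero N] {p x : ZMod N → M n} {y w : ZMod N → E n}

theorem mem_VV : y ∈ VV p ↔ ∀ k, ⟪y k, (p k : E n)⟫ = 0 := Iff.rfl
theorem xi_apply : xi w y = ∑ k, ⟪y k, w k⟫ := rfl
theorem mem_V0 : y ∈ V0 p w ↔ y ∈ VV p ∧ xi w y = 0 := Iff.rfl

theorem ch_val (hy : y ∈ VV p) (h : ‖y‖ ≤ 1 / 2) (k : ZMod N) : (ch p y k : E n) = Ph (p k) (y k) := by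
  exact toM_val (norm_Ph _ (hy k) ((norm_le_pi_norm y k).trans h))

theorem ch_zero (p : ZMod N → M n) : ch p 0 = p := by
  funext k
  exact Subtype.ext ((ch_val (zero_mem _) (by simp) k).trans (Ph_zero _))

theorem continuousOn_ch (p : ZMod N → M n) : ContinuousOn (ch p) {y | y ∈ VV p ∧ ‖y‖ ≤ 1 / 2} := by
  refine continuousOn_pi.2 fun k => ?_
  rw [Topology.IsInducing.subtypeVal.continuousOn_iff]
  exact ((contDiff_Ph (p k : E n)).continuous.comp (continuous_apply k)).continuousOn.congr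
    fun y hy => ch_val hy.1 hy.2 k

theorem co_mem (p x : ZMod N → M n) : co p x ∈ VV p := by
  intro k
  rw [co, inner_sub_left, inner_smul_left, real_inner_self_eq_norm_sq, model_norm]
  simp

theorem co_self (p : ZMod N → M n) : co p p = 0 := by
  funext k
  rw [co, real_inner_self_eq_norm_sq, model_norm]
  simp

theorem continuous_co (p : ZMod N → M n) : Continuous (co p) := by
  unfold co
  fun_prop

theorem norm_co_sub_le (p x x' : ZMod N → M n) : ‖co p x - co p x'‖ ≤ dist x x' := by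
  refine (pi_norm_le_iff_of_nonneg dist_nonneg).2 fun k => le_trans ?_ (dist_le_pi_dist x x' k)
  have e : (co p x - co p x') k = ((x k : E n) - x' k) - ⟪(x k : E n) - x' k, (p k : E n)⟫ • (p k : E n) := by
    simp only [co, Pi.sub_apply, inner_sub_left, sub_smul]
    abel
  rw [e, Subtype.dist_eq, dist_eq_norm]
  refine (sq_le_sq₀ (norm_nonneg _) (norm_nonneg _)).1 ?_
  rw [model_proj]
  nlinarith [sq_nonneg ⟪(x k : E n) - x' k, (p k : E n)⟫]

theorem ch_co (h : dist x p ≤ 1 / 2) : ch p (co p x) = x := by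
  have h1 : ‖co p x‖ ≤ 1 / 2 := by
    have := norm_co_sub_le p x p
    rw [co_self, sub_zero] at this
    exact this.trans h
  funext k
  refine Subtype.ext ?_
  have h2 : ‖(x k : E n) - p k‖ ≤ 1 / 2 := by
    rw [← dist_eq_norm, ← Subtype.dist_eq]
    exact (dist_le_pi_dist x p k).trans h
  have h3 := norm_sub_sq_real (x k : E n) (p k)
  rw [model_norm, model_norm] at h3
  have h4 : 0 ≤ ⟪(x k : E n), (p k : E n)⟫ := by nlinarith [norm_nonneg ((x k : E n) - p k)]
  rw [ch_val (co_mem p x) h1, Ph, th_eq (model_abs ((norm_le_pi_norm _ k).trans h1)), co, model_proj, model_norm,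
    one_pow, sub_sub_cancel, Real.sqrt_sq h4, add_sub_cancel]

theorem co_ch (hy : y ∈ VV p) (h : ‖y‖ ≤ 1 / 2) : co p (ch p y) = y := by
  funext k
  rw [co, ch_val hy h, Ph, inner_add_left, inner_smul_left, real_inner_self_eq_norm_sq, model_norm, hy k]
  simp

theorem xi_co (hw : w ∈ VV p) (x : ZMod N → M n) : xi w (co p x) = xM w x := by
  refine Finset.sum_congr rfl fun k _ => ?_
  rw [co, inner_sub_left, inner_smul_left, real_inner_comm (w k) (p k : E n), hw k, mul_zero, sub_zero]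

theorem continuous_xM (w : ZMod N → E n) : Continuous (xM w) := by
  unfold xM
  fun_prop

theorem model_d2 {A : Type} [NormedAddCommGroup A] [NormedSpace ℝ A] {F : A → ℝ} (hF : ContDiff ℝ ∞ F) (y v : A) :
    HasFDerivAt (fun y => fderiv ℝ F y v) ((ContinuousLinearMap.apply ℝ ℝ v).comp (fderiv ℝ (fderiv ℝ F) y)) y :=
  (ContinuousLinearMap.apply ℝ ℝ v).hasFDerivAt.comp y
    ((hF.fderiv_right (m := ∞) le_rfl).differentiable (by simp) y).hasFDerivAt

theorem model_symm {A : Type} [NormedAddCommGroup A] [NormedSpace ℝ A] {F : A → ℝ} (hF : ContDiff ℝ ∞ F)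
    (y u v : A) : fderiv ℝ (fderiv ℝ F) y u v = fderiv ℝ (fderiv ℝ F) y v u :=
  (hF.contDiffAt (x := y)).isSymmSndFDerivAt (by
    rw [minSmoothness_of_isRCLikeNormedField]
    exact WithTop.coe_le_coe.2 (le_top : (2 : ℕ∞) ≤ ⊤)) u v

/-- the edge projection -/
def model_pi (k : ZMod N) : (ZMod N → E n) →L[ℝ] E n × E n :=
  (ContinuousLinearMap.proj k).prod (ContinuousLinearMap.proj (k + 1))

theorem model_single (L : ZMod N → E n × E n →L[ℝ] ℝ) (k : ZMod N) (v : E n) :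
    ∑ j, L j ((Pi.single k v : ZMod N → E n) j, (Pi.single k v : ZMod N → E n) (j + 1)) =
      L (k - 1) (0, v) + L k (v, 0) := by
  have e : ∀ j, L j ((Pi.single k v : ZMod N → E n) j, (Pi.single k v : ZMod N → E n) (j + 1)) =
      (if j = k - 1 then L (k - 1) (0, v) else 0) + if j = k then L k (v, 0) else 0 := fun j => by
    rw [← Prod.fst_add_snd (_, _), map_add, add_comm]
    congr 1
    · split_ifs with h
      · simp [h]
      · rw [Pi.single_eq_of_ne fun h' => h (eq_sub_of_add_eq h')]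
        exact map_zero _
    · split_ifs with h
      · simp [h]
      · rw [Pi.single_eq_of_ne h]
        exact map_zero _
  simp [e, Finset.sum_add_distrib]

namespace Setup
variable (G : Setup n)

theorem contDiff_hS (a b : E n) : ContDiff ℝ ∞ (G.hS a b) := by
  exact G.S_smooth.comp (((contDiff_Ph a).comp contDiff_fst).prodMk ((contDiff_Ph b).comp contDiff_snd))

theorem contDiff_FF (p : ZMod N → M n) : ContDiff ℝ ∞ (G.FF p) := by
  exact contDiff_const.mul (ContDiff.sum fun k _ => (G.contDiff_hS _ _).comp (model_pi k).contDiff)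

theorem FF_eq_en (hy : y ∈ VV p) (h : ‖y‖ ≤ 1 / 2) (hD : ch p y ∈ G.Dom N) : G.FF p y = G.en N (ch p y) := by
  unfold FF en
  congr 1
  refine Finset.sum_congr rfl fun k _ => ?_
  rw [← G.S_eq _ _ (hD k), ch_val hy h, ch_val hy h, hS]

theorem model_FF (p : ZMod N → M n) (y : ZMod N → E n) : HasFDerivAt (G.FF p)
    ((N : ℝ) • ∑ k, (fderiv ℝ (G.hS (p k) (p (k + 1))) (model_pi k y)).comp (model_pi k)) y :=
  (HasFDerivAt.fun_sum fun k _ => (((G.contDiff_hS (p k) (p (k + 1))).differentiable (by simp)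
    (model_pi k y)).hasFDerivAt.comp y (model_pi k).hasFDerivAt)).const_mul (N : ℝ)

theorem fderiv_FF (p : ZMod N → M n) (y v : ZMod N → E n) : fderiv ℝ (G.FF p) y v =
    N * ∑ k, fderiv ℝ (G.hS (p k) (p (k + 1))) (y k, y (k + 1)) (v k, v (k + 1)) := by
  rw [(G.model_FF p y).fderiv]
  simp [model_pi]

theorem fderiv2_FF (p : ZMod N → M n) (y u v : ZMod N → E n) : fderiv ℝ (fderiv ℝ (G.FF p)) y u v =
    N * ∑ k, fderiv ℝ (fderiv ℝ (G.hS (p k) (p (k + 1)))) (y k, y (k + 1)) (u k, u (k + 1)) (v k, v (k + 1)) := by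
  have h1 := model_d2 (G.contDiff_FF p) y v
  simp only [fderiv_FF] at h1
  have h2 := (HasFDerivAt.fun_sum (u := Finset.univ) fun k _ =>
    (model_d2 (G.contDiff_hS (p k) (p (k + 1))) (model_pi k y) (v k, v (k + 1))).comp y
      (model_pi k).hasFDerivAt).const_mul (N : ℝ)
  simpa [model_pi] using congrArg (· u) (h1.unique h2)

theorem fderiv_hS (a b : E n) (q v : E n × E n) : fderiv ℝ (G.hS a b) q v =
    fderiv ℝ G.S (Ph a q.1, Ph b q.2) (fderiv ℝ (Ph a) q.1 v.1, fderiv ℝ (Ph b) q.2 v.2) := by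
  have d : ∀ a v : E n, HasFDerivAt (Ph a) (fderiv ℝ (Ph a) v) v := fun a v =>
    ((contDiff_Ph a).differentiable (by simp) v).hasFDerivAt
  have h1 := (G.S_smooth.differentiable (by simp) (Ph a q.1, Ph b q.2)).hasFDerivAt.comp q
    (((d a q.1).comp q hasFDerivAt_fst).prodMk ((d b q.2).comp q hasFDerivAt_snd))
  exact congrArg (· v) h1.fderiv

/-- the mixed second derivative at the origin: differentiate `q₂ ↦ d hS (0,q₂) (w,0) = dS (a, Ph b q₂) (w,0)` -/
theorem hS_mixed (a b v w : E n) :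
    fderiv ℝ (fderiv ℝ (G.hS a b)) 0 (0, v) (w, 0) = fderiv ℝ (fderiv ℝ G.S) (a, b) (w, 0) (0, v) := by
  have dS := (G.S_smooth.fderiv_right (m := ∞) le_rfl).differentiable (by simp)
  have dh := ((G.contDiff_hS a b).fderiv_right (m := ∞) le_rfl).differentiable (by simp)
  have h1 : HasFDerivAt (fun q : E n => fderiv ℝ (G.hS a b) (0, q) (w, 0))
      ((ContinuousLinearMap.apply ℝ ℝ ((w, 0) : E n × E n)).comp
        ((fderiv ℝ (fderiv ℝ (G.hS a b)) (0, 0)).comp (ContinuousLinearMap.inr ℝ (E n) (E n)))) 0 :=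
    (ContinuousLinearMap.apply ℝ ℝ ((w, 0) : E n × E n)).hasFDerivAt.comp 0
      ((dh (0, 0)).hasFDerivAt.comp 0 (ContinuousLinearMap.inr ℝ (E n) (E n)).hasFDerivAt)
  have h2 : HasFDerivAt (fun q : E n => fderiv ℝ G.S (a, Ph b q) (w, 0))
      ((ContinuousLinearMap.apply ℝ ℝ ((w, 0) : E n × E n)).comp
        ((fderiv ℝ (fderiv ℝ G.S) (a, Ph b 0)).comp (ContinuousLinearMap.prod 0 (ContinuousLinearMap.id ℝ (E n))))) 0 :=
    (ContinuousLinearMap.apply ℝ ℝ ((w, 0) : E n × E n)).hasFDerivAt.comp 0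
      ((dS (a, Ph b 0)).hasFDerivAt.comp 0 ((hasFDerivAt_const a 0).prodMk (hasFDerivAt_Ph_zero b)))
  have e : (fun q : E n => fderiv ℝ (G.hS a b) (0, q) (w, 0)) = fun q => fderiv ℝ G.S (a, Ph b q) (w, 0) := by
    funext q
    rw [fderiv_hS, (hasFDerivAt_Ph_zero a).fderiv]
    simp [Ph_zero]
  rw [e] at h1
  have h3 := congrArg (· v) (h1.unique h2)
  rw [model_symm G.S_smooth _ (w, 0) (0, v)]
  simpa [Ph_zero, ← Prod.zero_eq_mk] using h3

/-- a critical point of `FF` on `VV` satisfies the hypothesis of `G.crit` (test with `Pi.single k v'`) -/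
theorem crit_of_fderiv (hy : y ∈ VV p) (h : ‖y‖ ≤ 1 / 2) (hc : ∀ v ∈ VV p, fderiv ℝ (G.FF p) y v = 0)
    (k : ZMod N) (w : E n) (hw : ⟪w, (ch p y k : E n)⟫ = 0) :
    fderiv ℝ G.S (ch p y (k - 1), ch p y k) (0, w) + fderiv ℝ G.S (ch p y k, ch p y (k + 1)) (w, 0) = 0 := by
  have hn : ∀ j, ‖y j‖ ≤ 1 / 2 := fun j => (norm_le_pi_norm y j).trans h
  obtain ⟨v', h1, h2⟩ := fderiv_Ph_surj (p k) (hy k) (hn k) (ch_val hy h k ▸ hw)
  have h3 := hc (Pi.single k v') fun j => by
    by_cases hj : j = k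
    · rw [hj, Pi.single_eq_same, h1]
    · simp [Pi.single_eq_of_ne hj]
  rw [fderiv_FF, model_single (fun j => fderiv ℝ (G.hS (p j) (p (j + 1))) (y j, y (j + 1))),
    mul_eq_zero, fderiv_hS, fderiv_hS] at h3
  simp only [sub_add_cancel, map_zero, h2] at h3
  simp only [ch_val hy h]
  exact h3.resolve_left (Nat.cast_ne_zero.2 (NeZero.ne N))

theorem c'_per (i : G.ι) : Function.Periodic (G.c' i) 1 := by
  intro t
  have h1 := (G.c_deriv i (t + 1)).comp_add_const t 1
  simp only [G.c_per i _] at h1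
  exact h1.unique (G.c_deriv i t)

theorem c'_perp (i : G.ι) (t : ℝ) : ⟪G.c' i t, (G.c i t : E n)⟫ = 0 := by
  have h1 := (G.c_deriv i t).inner ℝ (G.c_deriv i t)
  simp only [real_inner_self_eq_norm_sq, model_norm] at h1
  have h2 := h1.unique (hasDerivAt_const t _)
  rw [real_inner_comm] at h2
  linarith

theorem bp_intCast (i : G.ι) (m : ℕ) (z : ℤ) : G.bp i m N (z : ZMod N) = G.c i (m * (z / N)) := by
  rw [bp, nodes_intCast, geo_ev]
  simp [sg]

theorem bw_intCast (i : G.ι) (m : ℕ) (z : ℤ) : G.bw i m N (z : ZMod N) = G.c' i (m * (z / N)) := by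
  have h0 : (N : ℝ) ≠ 0 := Nat.cast_ne_zero.2 (NeZero.ne N)
  have h1 : (((z : ZMod N).val : ℤ) : ℝ) = z - N * (z / N : ℤ) := by
    rw [ZMod.val_intCast, Int.emod_def]
    push_cast
    rfl
  rw [bw, ← Int.cast_natCast (ZMod.val _), h1, ← (G.c'_per i).int_mul (m * (z / N))]
  congr 1
  push_cast
  field_simp
  ring

theorem bw_mem (i : G.ι) (m : ℕ) : G.bw i m N ∈ VV (G.bp i m N) := by
  intro k
  rw [← ZMod.intCast_zmod_cast k, bw_intCast, bp_intCast, c'_perp]

theorem bp_mem_Dom (i : G.ι) {m : ℕ} (h : m * G.ℓ i < N * G.δ) : G.bp i m N ∈ G.Dom N := by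
  exact G.nodes_mem_Dom N (by rwa [geo_T])

theorem FF_zero (i : G.ι) {m : ℕ} (h : m * G.ℓ i < N * G.δ) : G.FF (G.bp i m N) 0 = (m * G.ℓ i) ^ 2 := by
  rw [G.FF_eq_en (zero_mem _) (by simp) (by rw [ch_zero]; exact G.bp_mem_Dom i h), ch_zero, bp,
    G.en_nodes_geo N i m true 0 h]

theorem xM_bp (i : G.ι) (m : ℕ) : xM (G.bw i m N) (G.bp i m N) = 0 := by
  rw [← xi_co (G.bw_mem i m), co_self, map_zero]

end Setup

end Crest.Agent.R231
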