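import Crest.Agent.R231.GM.Model

/-! R231, block GM: the slice functional increases along the shift.
Choose `η, κ₀ > 0` with `⟪c' (t+u), c' t⟫ ≥ κ₀` for `|u| ≤ 4η` (periodicity, uniform continuity, `c' ≠ 0`).
For each `k` the map `s ↦ ⟪poly x (k/N + s), w k⟫` is continuous and has the right derivative
`⟪N • gv (x z) (x (z+1)) u, w k⟫`, `z = ⌊N t⌋`, `u = fract (N t)`, `t = k/N + s` (`poly_piece`, `gs_deriv`); for
`x = nodes (geo θ)` the vector is `m • c' (m t + θ)` (`gv_c`); `gv` is uniformly continuous on the compact set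
`{ρ ≤ δ', u ∈ [0,1]}`; `image_le_of_deriv_right_le_deriv_boundary`. -/

set_option autoImplicit false
set_option linter.unusedVariables false
set_option linter.unusedSectionVars false
set_option linter.unusedSimpArgs false
open Set
open scoped Classical ContDiff RealInnerProductSpace

noncomputable section
namespace Crest.Agent.R231

namespace Setup
variable {n : ℕ} (G : Setup n)

theorem mono_c (i : G.ι) : ∃ η κ C : ℝ, 0 < η ∧ 0 < κ ∧ 0 < C ∧ (∀ t, ‖G.c' i t‖ ≤ C) ∧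
    ∀ t u, |u| ≤ 4 * η → κ ≤ ⟪G.c' i (t + u), G.c' i t⟫ := by
  have hc := G.c'_cont i
  have hf : ∀ t : ℝ, Int.fract t ∈ Icc (0 : ℝ) 1 := fun t => ⟨Int.fract_nonneg _, (Int.fract_lt_one _).le⟩
  have hp : ∀ t u : ℝ, G.c' i (Int.fract t + u) = G.c' i (t + u) := fun t u => by
    rw [← (G.c'_per i).int_mul ⌊t⌋]
    congr 1
    simp only [Int.fract]
    ring
  obtain ⟨C, hC⟩ := isCompact_Icc.exists_bound_of_continuousOn (hc.continuousOn (s := Icc (0 : ℝ) 1))
  obtain ⟨a, ha, h1⟩ := (isCompact_Icc (a := (0 : ℝ)) (b := 1)).exists_forall_le'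
    (f := fun t => ⟪G.c' i t, G.c' i t⟫) (a := 0) (by fun_prop) fun t _ => real_inner_self_pos.2 (G.c'_ne i t)
  have h2 := (isCompact_Icc (a := (0 : ℝ)) (b := 1)).eventually_forall_of_forall_eventually (x₀ := (0 : ℝ))
    (P := fun u t => a / 2 < ⟪G.c' i (t + u), G.c' i t⟫) fun t ht =>
      (continuous_const.continuousAt).eventually_lt (by fun_prop) (by
        have := h1 t ht
        simp only [add_zero]
        linarith)
  obtain ⟨ε, hε, h3⟩ := Metric.eventually_nhds_iff.1 h2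
  refine ⟨ε / 8, a / 2, max C 1, by positivity, by positivity, by positivity, fun t => ?_, fun t u hu => ?_⟩
  · have := hp t 0
    rw [add_zero, add_zero] at this
    exact this ▸ (hC _ (hf t)).trans (le_max_left _ _)
  · have h4 := h3 (y := u) (by rw [Real.dist_eq, sub_zero]; linarith) _ (hf t)
    have h5 := hp t 0
    rw [add_zero, add_zero] at h5
    rw [hp, h5] at h4
    exact h4.le

theorem mono_poly {N : ℕ} [NeZero N] {x : ZMod N → M n} (hx : x ∈ G.Dom N) (t : ℝ) :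
    HasDerivWithinAt (fun s => (G.poly N x s : E n))
      ((N : ℝ) • G.gv (x (⌊N * t⌋ : ℤ)) (x ((⌊N * t⌋ : ℤ) + 1)) (Int.fract (N * t))) (Ici t) t := by
  have hN : (0 : ℝ) < N := Nat.cast_pos.2 (NeZero.pos N)
  have h1 := (G.gs_deriv _ _ (N * t - ⌊N * t⌋) (hx (⌊N * t⌋ : ℤ))).scomp t
    (((hasDerivAt_id' t).const_mul (N : ℝ)).sub_const (⌊N * t⌋ : ℝ))
  rw [mul_one] at h1
  refine h1.hasDerivWithinAt.congr_of_eventuallyEq ?_ rfl
  have h2 : ∀ᶠ s : ℝ in nhds t, N * s < ⌊N * t⌋ + 1 :=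
    (by fun_prop : ContinuousAt (fun s : ℝ => N * s) t).eventually_lt continuousAt_const (Int.lt_floor_add_one _)
  filter_upwards [mem_nhdsWithin_of_mem_nhds h2, self_mem_nhdsWithin] with s h3 h4
  have h5 : ⌊N * s⌋ = ⌊N * t⌋ :=
    Int.floor_eq_iff.2 ⟨(Int.floor_le _).trans (mul_le_mul_of_nonneg_left h4 hN.le), h3⟩
  simp only [poly, Int.fract, h5, Function.comp]

theorem mono (i : G.ι) : ∃ η, 0 < η ∧ ∀ (m N : ℕ) [NeZero N], 0 < m → m * G.ℓ i < N * G.δ →
    ∃ κ, 0 < κ ∧ ∃ O, IsOpen O ∧ O ⊆ G.Dom N ∧ (∀ θ, |θ| ≤ η → G.nodes N (G.geo i m true θ) ∈ O) ∧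
      ∀ x ∈ O, ∀ s s', |s| ≤ 3 * η / m → |s'| ≤ 3 * η / m → s ≤ s' →
        κ * (s' - s) ≤ xM (G.bw i m N) (G.sh N s' x) - xM (G.bw i m N) (G.sh N s x) := by
  obtain ⟨η, κ, C, hη, hκ, hC, h1, h2⟩ := G.mono_c i
  refine ⟨η, hη, fun m N _ hm h => ?_⟩
  have hN : (0 : ℝ) < N := Nat.cast_pos.2 (NeZero.pos N)
  have hm1 : (1 : ℝ) ≤ m := by exact_mod_cast hm
  have hlt : m * G.ℓ i / N < G.δ := by rwa [div_lt_iff₀' hN]
  obtain ⟨δ', hδ1, hδ2⟩ := exists_between hlt
  have hQ : IsCompact {q : M n × M n × ℝ | G.ρ q.1 q.2.1 ≤ δ' ∧ q.2.2 ∈ Icc (0 : ℝ) 1} :=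
    (isCompact_univ.prod (isCompact_univ.prod (isCompact_Icc (a := (0 : ℝ)) (b := 1)))).of_isClosed_subset
      ((isClosed_le (G.continuous_ρ.comp (f := fun q : M n × M n × ℝ => (q.1, q.2.1)) (by fun_prop))
        continuous_const).inter (isClosed_Icc.preimage (by fun_prop))) fun q hq => ⟨trivial, trivial, hq.2⟩
  obtain ⟨r, hr, hU⟩ := Metric.uniformContinuousOn_iff.1 (hQ.uniformContinuousOn_of_continuous
    (G.gv_cont.mono fun q hq => lt_of_le_of_lt hq.1 hδ2)) (κ / (2 * N * C)) (by positivity)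
  have hθ : ∀ θ k, G.ρ (G.nodes N (G.geo i m true θ) k) (G.nodes N (G.geo i m true θ) (k + 1)) < δ' :=
    fun θ k => (G.ρ_nodes_le N _ k).trans_lt (by rwa [geo_T])
  refine ⟨N * (κ / 2), by positivity, {x | ∀ k, G.ρ (x k) (x (k + 1)) < δ'} ∩
    ⋃ θ ∈ {θ | |θ| ≤ η}, Metric.ball (G.nodes N (G.geo i m true θ)) r, IsOpen.inter ?_
      (isOpen_biUnion fun _ _ => Metric.isOpen_ball), fun x hx k => (hx.1 k).trans hδ2,
    fun θ hθ' => ⟨hθ θ, mem_biUnion hθ' (Metric.mem_ball_self hr)⟩, fun x hx s s' hs hs' hss => ?_⟩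
  · rw [ofPred_forall]
    exact isOpen_iInter_of_finite fun k => isOpen_lt
      (G.continuous_ρ.comp (f := fun x : ZMod N → M n => (x k, x (k + 1))) (by fun_prop)) continuous_const
  have hxD : x ∈ G.Dom N := fun k => (hx.1 k).trans hδ2
  obtain ⟨θ, hθη, hxθ⟩ := mem_iUnion₂.1 hx.2
  set V : ℝ → E n := fun t => (N : ℝ) • G.gv (x (⌊N * t⌋ : ℤ)) (x ((⌊N * t⌋ : ℤ) + 1)) (Int.fract (N * t)) with hV
  have hv : ∀ t, ‖V t - (m : ℝ) • G.c' i (m * t + θ)‖ ≤ κ / (2 * C) := fun t => by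
    have hu : Int.fract (N * t) ∈ Icc (0 : ℝ) 1 := ⟨Int.fract_nonneg _, (Int.fract_lt_one _).le⟩
    have h3 := hU (x (⌊N * t⌋ : ℤ), x ((⌊N * t⌋ : ℤ) + 1), Int.fract (N * t)) ⟨(hx.1 _).le, hu⟩
      (G.nodes N (G.geo i m true θ) (⌊N * t⌋ : ℤ), G.nodes N (G.geo i m true θ) ((⌊N * t⌋ : ℤ) + 1),
        Int.fract (N * t)) ⟨(hθ θ _).le, hu⟩ (by
        simp only [Prod.dist_eq, dist_self, max_lt_iff]
        exact ⟨(dist_le_pi_dist _ _ _).trans_lt hxθ, (dist_le_pi_dist _ _ _).trans_lt hxθ, hr⟩)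
    have e1 := G.nodes_intCast N (G.geo i m true θ) (⌊N * t⌋ + 1)
    rw [Int.cast_add, Int.cast_one] at e1
    have e2 : sg true * m * (((⌊N * t⌋ + 1 : ℤ) : ℝ) / N) + θ - (sg true * m * (⌊N * t⌋ / N) + θ) = m / N := by
      simp only [sg, if_true]
      push_cast
      ring
    dsimp only at h3
    rw [e1, nodes_intCast, geo_ev, geo_ev, G.gv_c i (by
      rw [abs_sub_comm, e2, abs_of_pos (by positivity), ← mul_div_assoc, mul_comm]; exact hlt), e2,
      dist_eq_norm] at h3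
    have e3 : (1 - Int.fract (N * t)) * (sg true * m * (⌊N * t⌋ / N) + θ) +
        Int.fract (N * t) * (sg true * m * (((⌊N * t⌋ + 1 : ℤ) : ℝ) / N) + θ) = m * t + θ := by
      simp only [sg, if_true, Int.fract]
      push_cast
      field_simp
      ring
    rw [e3] at h3
    have e4 : (m : ℝ) • G.c' i (m * t + θ) = (N : ℝ) • ((m : ℝ) / N) • G.c' i (m * t + θ) := by
      rw [smul_smul, mul_div_cancel₀ _ hN.ne']
    rw [e4, hV, ← smul_sub, norm_smul, Real.norm_of_nonneg hN.le]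
    calc _ ≤ N * (κ / (2 * N * C)) := mul_le_mul_of_nonneg_left h3.le hN.le
      _ = _ := by field_simp
  have hin : ∀ (k : ZMod N) (u : ℝ), |u| ≤ 3 * η / m → κ / 2 ≤ ⟪V (k.val / N + u), G.bw i m N k⟫ := fun k u hu => by
    have h3 := h2 (m * (k.val / N)) (m * u + θ) (by
      have h4 : |m * u| ≤ 3 * η := by
        rw [abs_mul, abs_of_pos (by positivity), mul_comm]
        exact (le_div_iff₀ (by positivity)).1 hu
      linarith [abs_add_le (m * u) θ, show |θ| ≤ η from hθη])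
    have h4 := (abs_real_inner_le_norm _ (G.bw i m N k)).trans (mul_le_mul (hv (k.val / N + u)) (h1 _)
      (norm_nonneg _) (by positivity))
    rw [inner_sub_left, inner_smul_left (G.c' i _), mul_add (m : ℝ), add_assoc, show κ / (2 * C) * C = κ / 2 by field_simp] at h4
    have h5 := (abs_le.1 h4).1
    simp only [conj_trivial, bw] at h5 ⊢
    nlinarith
  have hd : ∀ u, HasDerivWithinAt (fun u => xM (G.bw i m N) (G.sh N u x))
      (∑ k : ZMod N, ⟪V (k.val / N + u), G.bw i m N k⟫) (Ici u) u := fun u => by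
    refine HasDerivWithinAt.fun_sum fun k _ => ?_
    have h3 := (G.mono_poly hxD (k.val / N + u)).scomp u ((hasDerivAt_id' u).const_add ((k.val : ℝ) / N)).hasDerivWithinAt
      (s := Ici u) fun v hv => add_le_add_right (mem_Ici.1 hv) _
    simpa [sh, hV] using h3.inner ℝ (hasDerivWithinAt_const u _ (G.bw i m N k))
  have hc : Continuous fun u => xM (G.bw i m N) (G.sh N u x) :=
    (continuous_xM _).comp (continuousOn_univ.1 ((G.continuousOn_sh N).comp (f := fun u => (u, x))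
      (by fun_prop) fun u _ => ⟨trivial, hxD⟩))
  have h3 := image_le_of_deriv_right_le_deriv_boundary (a := s) (b := s')
    (f := fun u => N * (κ / 2) * (u - s) + xM (G.bw i m N) (G.sh N s x)) (f' := fun _ => N * (κ / 2))
    (by fun_prop) (fun u _ => by
      simpa using (((hasDerivAt_id' u).sub_const s).const_mul (N * (κ / 2) : ℝ)).hasDerivWithinAt)
    (by simp) hc.continuousOn (fun u _ => hd u) (fun u hu => by
      have h4 : |u| ≤ 3 * η / m := abs_le.2 ⟨(abs_le.1 hs).1.trans hu.1, hu.2.le.trans (abs_le.1 hs').2⟩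
      have h5 := Finset.sum_le_sum fun k (_ : k ∈ Finset.univ) => hin k u h4
      rwa [Finset.sum_const, Finset.card_univ, ZMod.card, nsmul_eq_mul] at h5) ⟨hss, le_rfl⟩
  linarith

end Setup

end Crest.Agent.R231
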