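import Crest.Agent.R231.GM.Box
import Crest.Agent.R231.GM.Model

/-! R231, block GM: the splitting lemma.  `Q = fderiv (fderiv F) 0` is symmetric; an orthogonal basis of `Q` on `Nrm`
(`LinearMap.BilinForm.exists_orthogonal_basis`) gives `Lm : (Fin k → ℝ) →L A`, `Lp : (Fin k' → ℝ) →L A` with
`Q (Lm t) (Lm t) ≤ -4κ ‖t‖²`, `Q (Lp u) (Lp u) ≥ 4κ ‖u‖²` and `Nrm = range Lm ⊕ range Lp`.  By continuity of the second
derivative the same holds with `2κ` at the points of a ball; `taylor_ge` gives the hypotheses of `LR.box` for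
`f (x,t,u) = F (J x + Lm t + Lp u)`; transport by the linear homeomorphism onto `V`. -/

set_option autoImplicit false
set_option linter.unusedVariables false
set_option linter.unusedSectionVars false
set_option linter.unusedSimpArgs false
open Set
open scoped Classical ContDiff RealInnerProductSpace

noncomputable section
namespace Crest.Agent.R231

variable {A : Type} [NormedAddCommGroup A] [NormedSpace ℝ A] [FiniteDimensional ℝ A]

/-- second order Taylor inequality along a segment -/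
theorem taylor_ge {F : A → ℝ} (hF : ContDiff ℝ ∞ F) {y v : A} {c : ℝ}
    (h : ∀ s ∈ Icc (0 : ℝ) 1, c ≤ fderiv ℝ (fderiv ℝ F) (y + s • v) v v) :
    F y + fderiv ℝ F y v + c / 2 ≤ F (y + v) := by
  have hl : ∀ s : ℝ, HasDerivAt (fun s : ℝ => y + s • v) v s := fun s => by
    simpa using ((hasDerivAt_id s).smul_const v).const_add y
  have d1 : ∀ s : ℝ, HasDerivAt (fun s : ℝ => F (y + s • v) - s * fderiv ℝ F y v - c * s ^ 2 / 2)
      (fderiv ℝ F (y + s • v) v - fderiv ℝ F y v - c * s) s := fun s => by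
    have h1 := ((hF.differentiable (by simp)) (y + s • v)).hasFDerivAt.comp_hasDerivAt s (hl s)
    have h2 := (h1.sub ((hasDerivAt_id s).mul_const (fderiv ℝ F y v))).sub
      (((hasDerivAt_pow 2 s).const_mul c).div_const 2)
    exact h2.congr_deriv (by simp; ring)
  have d2 : ∀ s : ℝ, HasDerivAt (fun s : ℝ => fderiv ℝ F (y + s • v) v - fderiv ℝ F y v - c * s)
      (fderiv ℝ (fderiv ℝ F) (y + s • v) v v - c) s := fun s => by
    have h1 := (model_d2 hF (y + s • v) v).comp_hasDerivAt s (hl s)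
    have h2 := (h1.sub_const (fderiv ℝ F y v)).sub ((hasDerivAt_id s).const_mul c)
    exact h2.congr_deriv (by simp)
  have m2 := monotoneOn_of_deriv_nonneg (convex_Icc (0 : ℝ) 1)
    (fun s _ => (d2 s).continuousAt.continuousWithinAt) (fun s _ => (d2 s).differentiableAt.differentiableWithinAt)
    fun s hs => by rw [(d2 s).deriv]; exact sub_nonneg.2 (h s (interior_subset hs))
  have m1 := monotoneOn_of_deriv_nonneg (convex_Icc (0 : ℝ) 1)
    (fun s _ => (d1 s).continuousAt.continuousWithinAt) (fun s _ => (d1 s).differentiableAt.differentiableWithinAt)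
    fun s hs => by
      rw [(d1 s).deriv]
      have h3 := m2 (left_mem_Icc.2 zero_le_one) (interior_subset hs) (interior_subset hs).1
      simpa using h3
  have h3 := m1 (left_mem_Icc.2 zero_le_one) (right_mem_Icc.2 zero_le_one) zero_le_one
  simp at h3
  linarith

theorem sig_half {ι : Type} [Fintype ι] (Q : A →L[ℝ] A →L[ℝ] ℝ) (Nrm : Submodule ℝ A) (w : ι → A)
    (hw : ∀ i, w i ∈ Nrm) (ho : ∀ i j, i ≠ j → Q (w i) (w j) = 0) {κ : ℝ} (hκ : 0 < κ)
    (h : ∀ i, κ ≤ Q (w i) (w i)) : ∃ (k : ℕ) (L : (Fin k → ℝ) →L[ℝ] A), (∀ t, L t ∈ Nrm) ∧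
      (∀ c : ι → ℝ, ∃ t, L t = ∑ i, c i • w i) ∧ ∀ t, κ * ‖t‖ ^ 2 ≤ Q (L t) (L t) := by
  let e := Fintype.equivFin ι
  let L : (Fin (Fintype.card ι) → ℝ) →L[ℝ] A :=
    ∑ i, (ContinuousLinearMap.proj (R := ℝ) (φ := fun _ => ℝ) (e i)).smulRight (w i)
  have hL : ∀ t, L t = ∑ i, t (e i) • w i := fun t => by simp [L]
  refine ⟨_, L, fun t => ?_, fun c => ⟨fun j => c (e.symm j), by simp [hL]⟩, fun t => ?_⟩
  · rw [hL]
    exact Nrm.sum_mem fun i _ => Nrm.smul_mem _ (hw i)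
  · have h1 : Q (L t) (L t) = ∑ i, t (e i) ^ 2 * Q (w i) (w i) := by
      rw [hL]
      simp only [map_sum, map_smul, sum_apply, smul_apply, smul_eq_mul]
      refine Finset.sum_congr rfl fun i _ => ?_
      rw [Finset.sum_eq_single i (fun j _ hj => by rw [ho j i hj, mul_zero]) (by simp)]
      ring
    have h2 : ‖t‖ ≤ √(∑ i, t (e i) ^ 2) := by
      refine (pi_norm_le_iff_of_nonneg (Real.sqrt_nonneg _)).2 fun j => Real.abs_le_sqrt ?_
      have h3 := Finset.single_le_sum (f := fun i => t (e i) ^ 2) (fun i _ => sq_nonneg _)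
        (Finset.mem_univ (e.symm j))
      simpa using h3
    have h3 : ‖t‖ ^ 2 ≤ ∑ i, t (e i) ^ 2 := by
      have h4 := pow_le_pow_left₀ (norm_nonneg _) h2 2
      rwa [Real.sq_sqrt (Finset.sum_nonneg fun i _ => sq_nonneg _)] at h4
    rw [h1]
    refine (mul_le_mul_of_nonneg_left h3 hκ.le).trans ?_
    rw [Finset.mul_sum]
    exact Finset.sum_le_sum fun i _ => by rw [mul_comm]; exact mul_le_mul_of_nonneg_left (h i) (sq_nonneg _)

/-- signature decomposition of a nondegenerate symmetric form -/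
theorem exists_signature (Q : A →L[ℝ] A →L[ℝ] ℝ) (hQ : ∀ v w, Q v w = Q w v) (Nrm : Submodule ℝ A)
    (hN : ∀ z ∈ Nrm, (∀ z' ∈ Nrm, Q z z' = 0) → z = 0) :
    ∃ (k k' : ℕ) (Lm : (Fin k → ℝ) →L[ℝ] A) (Lp : (Fin k' → ℝ) →L[ℝ] A) (κ : ℝ), 0 < κ ∧
      (∀ t, Lm t ∈ Nrm) ∧ (∀ u, Lp u ∈ Nrm) ∧ (∀ z ∈ Nrm, ∃ t u, z = Lm t + Lp u) ∧
      (∀ t, Q (Lm t) (Lm t) ≤ -κ * ‖t‖ ^ 2) ∧ ∀ u, κ * ‖u‖ ^ 2 ≤ Q (Lp u) (Lp u) := by
  let B : LinearMap.BilinForm ℝ Nrm := LinearMap.mk₂ ℝ (fun z z' => Q z z') (by simp) (by simp) (by simp) (by simp)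
  obtain ⟨v, hv⟩ := LinearMap.BilinForm.exists_orthogonal_basis (B := B) ⟨fun z z' => hQ _ _⟩
  have ho : ∀ i j, i ≠ j → Q (v i) (v j) = 0 := LinearMap.isOrthoᵢ_def.1 hv
  have hne : ∀ i, Q (v i) (v i) ≠ 0 := fun i h0 => by
    refine v.ne_zero i (Subtype.ext (hN _ (v i).2 fun z' hz' => ?_))
    have h1 := congrArg Subtype.val (v.sum_repr ⟨z', hz'⟩)
    simp only [Submodule.coe_sum, Submodule.coe_smul] at h1
    rw [← h1, map_sum]
    refine Finset.sum_eq_zero fun j _ => ?_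
    rw [map_smul]
    by_cases hij : i = j
    · rw [← hij, h0, smul_zero]
    · rw [ho i j hij, smul_zero]
  obtain ⟨κ, hκ, hκ'⟩ : ∃ κ : ℝ, 0 < κ ∧ ∀ i, κ ≤ |Q (v i) (v i)| := by
    obtain ⟨κ, h1, h2⟩ := (finite_univ.isCompact (X := Fin (Module.finrank ℝ Nrm))).exists_forall_le'
      (f := fun i => |Q (v i) (v i)|) (a := 0) continuous_of_discreteTopology.continuousOn
      fun i _ => abs_pos.2 (hne i)
    exact ⟨κ, h1, fun i => h2 i trivial⟩
  obtain ⟨k, Lm, a1, a2, a3⟩ := sig_half (-Q) Nrm (fun i : {i // Q (v i) (v i) < 0} => (v i.1 : A))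
    (fun i => (v i.1).2) (fun i j hij => by simp [ho _ _ fun h => hij (Subtype.ext h)]) hκ
    fun i => by simpa [abs_of_neg i.2] using hκ' i.1
  obtain ⟨k', Lp, b1, b2, b3⟩ := sig_half Q Nrm (fun i : {i // ¬Q (v i) (v i) < 0} => (v i.1 : A))
    (fun i => (v i.1).2) (fun i j hij => ho _ _ fun h => hij (Subtype.ext h)) hκ
    fun i => by simpa [abs_of_nonneg (not_lt.1 i.2)] using hκ' i.1
  refine ⟨k, k', Lm, Lp, κ, hκ, a1, b1, fun z hz => ?_, fun t => ?_, b3⟩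
  · obtain ⟨t, ht⟩ := a2 fun i => v.repr ⟨z, hz⟩ i.1
    obtain ⟨u, hu⟩ := b2 fun i => v.repr ⟨z, hz⟩ i.1
    have h1 := congrArg Subtype.val (v.sum_repr ⟨z, hz⟩)
    simp only [Submodule.coe_sum, Submodule.coe_smul] at h1
    refine ⟨t, u, ?_⟩
    rw [ht, hu, Fintype.sum_subtype_add_sum_subtype (fun i => Q (v i) (v i) < 0)
      (fun i => v.repr ⟨z, hz⟩ i • (v i : A)), h1]
  · have h1 := a3 t
    simp only [neg_apply] at h1
    linarith

section
variable {P : Type} [NormedAddCommGroup P] [NormedSpace ℝ P] {F : A → ℝ}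

theorem split_near (hF : ContDiff ℝ ∞ F) (L : P →L[ℝ] A) {κ : ℝ} (hκ : 0 < κ) : ∀ᶠ y in nhds (0 : A), ∀ u,
    |fderiv ℝ (fderiv ℝ F) y (L u) (L u) - fderiv ℝ (fderiv ℝ F) 0 (L u) (L u)| ≤ κ * ‖u‖ ^ 2 := by
  have hc : Continuous (fderiv ℝ (fderiv ℝ F)) :=
    (hF.fderiv_right (m := ∞) (by simp)).continuous_fderiv (by simp)
  have hη : 0 < κ / (‖L‖ ^ 2 + 1) := by positivity
  have hc' : Continuous fun y => ‖fderiv ℝ (fderiv ℝ F) y - fderiv ℝ (fderiv ℝ F) 0‖ :=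
    Continuous.norm (E := A →L[ℝ] A →L[ℝ] ℝ) (hc.sub continuous_const)
  filter_upwards [(hc'.tendsto' 0 0 (by rw [sub_self]; exact ContinuousLinearMap.opNorm_zero)).eventually (gt_mem_nhds hη)] with y hy u
  rw [lt_div_iff₀ (by positivity)] at hy
  have h1 := (fderiv ℝ (fderiv ℝ F) y - fderiv ℝ (fderiv ℝ F) 0).le_opNorm₂ (L u) (L u)
  have h2 : ‖L u‖ * ‖L u‖ ≤ ‖L‖ ^ 2 * ‖u‖ ^ 2 := by
    have h3 := L.le_opNorm u
    nlinarith [norm_nonneg (L u)]
  simp only [sub_apply, Real.norm_eq_abs] at h1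
  have h0 := norm_nonneg (fderiv ℝ (fderiv ℝ F) y - fderiv ℝ (fderiv ℝ F) 0)
  have h4 := mul_le_mul_of_nonneg_left h2 h0
  have h5 := mul_le_mul_of_nonneg_right hy.le (sq_nonneg ‖u‖)
  nlinarith [mul_nonneg h0 (sq_nonneg ‖u‖)]

theorem split_tay (hF : ContDiff ℝ ∞ F) (L : P →L[ℝ] A) (y₀ : A) {S : Set P} (hS : Convex ℝ S) {κ : ℝ}
    (h : ∀ u ∈ S, ∀ w, κ * ‖w‖ ^ 2 ≤ fderiv ℝ (fderiv ℝ F) (y₀ + L u) (L w) (L w)) {u u' : P} (hu : u ∈ S)
    (hu' : u' ∈ S) :
    F (y₀ + L u) + fderiv ℝ F (y₀ + L u) (L (u' - u)) + κ * ‖u' - u‖ ^ 2 / 2 ≤ F (y₀ + L u') := by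
  have h1 := taylor_ge hF (y := y₀ + L u) (v := L (u' - u)) (c := κ * ‖u' - u‖ ^ 2) fun s hs => by
    have h2 := h _ (hS.add_smul_sub_mem hu hu' hs) (u' - u)
    rwa [map_add, map_smul, ← add_assoc] at h2
  rwa [add_assoc y₀, ← map_add, add_sub_cancel] at h1

theorem split_conv (hF : ContDiff ℝ ∞ F) (L : P →L[ℝ] A) (y₀ : A) {S : Set P} (hS : Convex ℝ S) {κ : ℝ}
    (hκ : 0 < κ) (h : ∀ u ∈ S, ∀ w, κ * ‖w‖ ^ 2 ≤ fderiv ℝ (fderiv ℝ F) (y₀ + L u) (L w) (L w)) :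
    StrictConvexOn ℝ S fun u => F (y₀ + L u) := by
  refine ⟨hS, fun u hu u' hu' hne a b ha hb hab => ?_⟩
  have hm := hS hu hu' ha.le hb.le hab
  have h1 := split_tay hF L y₀ hS h hm hu
  have h2 := split_tay hF L y₀ hS h hm hu'
  have e1 : u - (a • u + b • u') = b • (u - u') := by
    rw [show a = 1 - b by linarith]
    module
  have e2 : u' - (a • u + b • u') = -a • (u - u') := by
    rw [show b = 1 - a by linarith]
    module
  have h3 : 0 < κ * ‖u - (a • u + b • u')‖ ^ 2 := by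
    rw [e1]
    exact mul_pos hκ (pow_pos (norm_pos_iff.2 (smul_ne_zero hb.ne' (sub_ne_zero.2 hne))) 2)
  have h4 := mul_nonneg hκ.le (sq_nonneg ‖u' - (a • u + b • u')‖)
  have e3 : fderiv ℝ F (y₀ + L (a • u + b • u')) (L (u - (a • u + b • u'))) =
      b * fderiv ℝ F (y₀ + L (a • u + b • u')) (L (u - u')) := by rw [e1, map_smul, map_smul, smul_eq_mul]
  have e4 : fderiv ℝ F (y₀ + L (a • u + b • u')) (L (u' - (a • u + b • u'))) =
      -a * fderiv ℝ F (y₀ + L (a • u + b • u')) (L (u - u')) := by rw [e2, map_smul, map_smul, smul_eq_mul]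
  rw [e3] at h1
  rw [e4] at h2
  simp only [smul_eq_mul]
  have h5 := mul_le_mul_of_nonneg_left h1 ha.le
  have h6 := mul_le_mul_of_nonneg_left h2 hb.le
  have h7 : F (y₀ + L (a • u + b • u')) = a * F (y₀ + L (a • u + b • u')) + b * F (y₀ + L (a • u + b • u')) := by
    rw [← add_mul, hab, one_mul]
  nlinarith [mul_pos ha h3, mul_nonneg hb.le h4]

end

theorem LR.split {X : Type} [NormedAddCommGroup X] [NormedSpace ℝ X] [FiniteDimensional ℝ X] {F : A → ℝ}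
    (hF : ContDiff ℝ ∞ F) (J : X →L[ℝ] A) (V Nrm : Submodule ℝ A) (hJ : ∀ x, J x ∈ V) (hN : Nrm ≤ V)
    (hsum : ∀ v ∈ V, ∃ x, ∃ z ∈ Nrm, v = J x + z) (huniq : ∀ x, J x ∈ Nrm → x = 0)
    (h1 : ∀ x, ∀ z ∈ Nrm, fderiv ℝ F (J x) z = 0)
    (h2 : ∀ z ∈ Nrm, (∀ z' ∈ Nrm, fderiv ℝ (fderiv ℝ F) 0 z z' = 0) → z = 0) {R : ℕ}
    (h : LR (fun x => F (J x)) {0} (F 0) R) : LR (fun v : V => F v) {0} (F 0) R := by
  obtain ⟨k, k', Lm, Lp, κ, hκ, hm, hp, hz, qm, qp⟩ := exists_signature _ (model_symm hF 0) Nrm h2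
  have hκ2 : 0 < κ / 2 := half_pos hκ
  let T : X × (Fin k → ℝ) × (Fin k' → ℝ) →L[ℝ] A := J.coprod (Lm.coprod Lp)
  have hT : ∀ x t u, T (x, t, u) = J x + Lm t + Lp u := fun x t u => by simp [T, add_assoc]
  have hev := (T.continuous.tendsto' 0 0 (map_zero T)).eventually
    ((split_near hF Lm hκ2).and (split_near hF Lp hκ2))
  obtain ⟨ρ, hρ, hb⟩ := Metric.nhds_basis_closedBall.eventually_iff.1 hev
  have hb' : ∀ x ∈ Metric.ball (0 : X) ρ, ∀ t ∈ Metric.closedBall (0 : Fin k → ℝ) ρ,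
      ∀ u ∈ Metric.closedBall (0 : Fin k' → ℝ) ρ, (x, t, u) ∈ Metric.closedBall (0 : X × _ × _) ρ :=
    fun x hx t ht u hu => by
      rw [mem_closedBall_zero_iff] at ht hu ⊢
      rw [mem_ball_zero_iff] at hx
      exact max_le hx.le (max_le ht hu)
  have hF' : ContDiff ℝ ∞ (-F) := hF.neg
  have hneg : fderiv ℝ (-F) = -fderiv ℝ F := funext fun y => fderiv_neg
  have cp : ∀ x ∈ Metric.ball (0 : X) ρ, ∀ t ∈ Metric.closedBall (0 : Fin k → ℝ) ρ,
      ∀ u ∈ Metric.closedBall (0 : Fin k' → ℝ) ρ, ∀ w, κ / 2 * ‖w‖ ^ 2 ≤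
        fderiv ℝ (fderiv ℝ F) (J x + Lm t + Lp u) (Lp w) (Lp w) := fun x hx t ht u hu w => by
    have h3 := (abs_le.1 ((hb (hb' x hx t ht u hu)).2 w)).1
    rw [hT] at h3
    linarith [qp w]
  have cm : ∀ x ∈ Metric.ball (0 : X) ρ, ∀ u ∈ Metric.closedBall (0 : Fin k' → ℝ) ρ,
      ∀ t ∈ Metric.closedBall (0 : Fin k → ℝ) ρ, ∀ w, κ / 2 * ‖w‖ ^ 2 ≤
        fderiv ℝ (fderiv ℝ (-F)) (J x + Lp u + Lm t) (Lm w) (Lm w) := fun x hx u hu t ht w => by
    have h3 := (abs_le.1 ((hb (hb' x hx t ht u hu)).1 w)).2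
    rw [hT, add_right_comm] at h3
    rw [hneg, fderiv_neg]
    simp only [neg_apply]
    linarith [qm w]
  have z1 : (0 : Fin k → ℝ) ∈ Metric.closedBall 0 ρ := Metric.mem_closedBall_self hρ.le
  have z2 : (0 : Fin k' → ℝ) ∈ Metric.closedBall 0 ρ := Metric.mem_closedBall_self hρ.le
  have key := LR.box (f := fun z => F (T z)) (hF.continuous.comp T.continuous) (x₀ := 0) Metric.isOpen_ball
    (Metric.mem_ball_self hρ) hρ (half_pos hκ2) (R := R) (fun x hx t ht => ?_) (fun x hx u hu => ?_)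
    (fun x hx t ht => ?_) (fun x hx u hu => ?_) (by simpa [hT] using h)
  · have hV : ∀ z, T z ∈ V := fun z => by
      rw [hT z.1 z.2.1 z.2.2]
      exact V.add_mem (V.add_mem (hJ _) (hN (hm _))) (hN (hp _))
    have hbij : Function.Bijective ((T : X × (Fin k → ℝ) × (Fin k' → ℝ) →ₗ[ℝ] A).codRestrict V hV) := by
      refine ⟨(injective_iff_map_eq_zero _).2 fun z h0 => ?_, fun v => ?_⟩
      · obtain ⟨x, t, u⟩ := z
        have h3 : J x + Lm t + Lp u = 0 := by rw [← hT]; exact congrArg Subtype.val h0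
        have h4 : x = 0 := huniq x (by
          rw [show J x = -(Lm t + Lp u) by rw [eq_neg_iff_add_eq_zero, ← add_assoc, h3]]
          exact Nrm.neg_mem (Nrm.add_mem (hm _) (hp _)))
        rw [h4, map_zero, zero_add] at h3
        have h5 := qm t
        have h6 := qp u
        rw [show Lm t = -Lp u from eq_neg_of_add_eq_zero_left h3] at h5
        simp only [map_neg, neg_apply, neg_neg] at h5
        have h7 : ‖t‖ ^ 2 + ‖u‖ ^ 2 ≤ 0 := by
          by_contra h7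
          nlinarith [mul_pos hκ (not_le.1 h7)]
        have h8 : t = 0 := by rw [← norm_eq_zero]; nlinarith [norm_nonneg t, sq_nonneg ‖u‖]
        have h9 : u = 0 := by rw [← norm_eq_zero]; nlinarith [norm_nonneg u, sq_nonneg ‖t‖]
        rw [h4, h8, h9]
        rfl
      · obtain ⟨x, z, h3, h4⟩ := hsum v v.2
        obtain ⟨t, u, rfl⟩ := hz z h3
        exact ⟨(x, t, u), Subtype.ext (by rw [h4, ← add_assoc, ← hT]; rfl)⟩
    let e := (LinearEquiv.ofBijective _ hbij).toContinuousLinearEquiv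
    have h3 := LR.homeo (g := fun v : V => F v) e.toHomeomorph (fun z => rfl) key
    have h4 : e.toHomeomorph (0, 0, 0) = 0 := map_zero e
    rw [image_singleton, h4] at h3
    simpa [hT] using h3
  · simp only [hT]
    exact split_conv hF Lp _ (convex_closedBall _ _) hκ2 (cp x hx t ht)
  · have h3 := (split_conv hF' Lm _ (convex_closedBall _ _) hκ2 (cm x hx u hu)).convexOn.neg
    simp only [hT]
    refine h3.congr fun t _ => ?_
    simp [add_right_comm]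
  · have h3 := split_tay hF' Lm _ (convex_closedBall _ _) (cm x hx 0 z2) z1 ht
    rw [hneg] at h3
    simp only [map_zero, add_zero, sub_zero, Pi.neg_apply, neg_apply, h1 x _ (hm t)] at h3
    simp only [hT, map_zero, add_zero]
    linarith
  · have h3 := split_tay hF Lp _ (convex_closedBall _ _) (cp x hx 0 z1) z2 hu
    simp only [map_zero, add_zero, sub_zero, h1 x _ (hp u)] at h3
    simp only [hT, map_zero, add_zero]
    nlinarith [mul_nonneg hκ2.le (sq_nonneg ‖u‖)]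

end Crest.Agent.R231
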