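import Crest.Agent.R231.GM.Model
import Crest.Agent.R231.GM.Split

/-! R231, block GM: reduction to the fixed space.  `N' = m₀ N₀ ∣ N = m N₀`, `π = ZMod.castHom`, `J y = y ∘ π`,
`bp (m,N) = bp (m₀,N') ∘ π`, `bw` likewise, `q = m / m₀`; the fibres of `π` have `q` elements, so `FF (J y) = q² FF y`,
`xi (J y) = q xi y`.  Fibre sum `Σ z k' = ∑_{π k = k'} z k`, `Σ (J y) = q y`; `Nrm = VV ⊓ ker Σ`; `v = J (q⁻¹ Σ v) + z`.
For a family of linear maps `L k'`: `∑_k L (π k) (z k, z (k+1)) = ∑_{k'} L k' (Σ z k', Σ z (k'+1))`; with `fderiv_FF`, `fderiv2_FF` this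
gives `dFF (J y) z = 0`, `d²FF 0 z (J y) = 0` for `z ∈ Nrm` (and `xi z = 0`).  A sequence of period `N'` is `J y`.
`LR.split` with `X = V0 (m₀,N')`, `LR.const_mul`. -/

set_option autoImplicit false
set_option linter.unusedVariables false
set_option linter.unusedSectionVars false
set_option linter.unusedSimpArgs false
open Set
open scoped Classical ContDiff RealInnerProductSpace

noncomputable section
namespace Crest.Agent.R231

section
variable {n N N' q : ℕ} [NeZero N] [NeZero N'] (π : ZMod N →+* ZMod N')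

theorem red_card (hs : Function.Surjective π) (hq : N = q * N') (k' : ZMod N') :
    (Finset.univ.filter fun k => π k = k').card = q := by
  have h1 : ∀ j, (Finset.univ.filter fun k => π k = j).card = (Finset.univ.filter fun k => π k = k').card :=
    fun j => AddMonoidHom.card_fiber_eq_of_mem_range π (hs j) (hs k')
  have h2 := Finset.card_eq_sum_card_fiberwise (f := π) (s := Finset.univ) (t := Finset.univ)
    fun _ _ => Finset.mem_univ _
  simp only [h1, Finset.card_univ, ZMod.card, Finset.sum_const, smul_eq_mul] at h2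
  exact Nat.eq_of_mul_eq_mul_left (NeZero.pos N') (by rw [← h2, mul_comm, ← hq])

theorem red_sum (hs : Function.Surjective π) (hq : N = q * N') (g : ZMod N' → ℝ) :
    ∑ k, g (π k) = q * ∑ k', g k' := by
  rw [← Finset.sum_fiberwise Finset.univ π, Finset.mul_sum]
  refine Finset.sum_congr rfl fun k' _ => ?_
  rw [Finset.sum_congr rfl fun k hk => congrArg g (Finset.mem_filter.1 hk).2, Finset.sum_const,
    red_card π hs hq, nsmul_eq_mul]

/-- fibre sum -/
def red_S : (ZMod N → E n) →ₗ[ℝ] ZMod N' → E n where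
  toFun z k' := ∑ k ∈ Finset.univ.filter fun k => π k = k', z k
  map_add' a b := funext fun k' => by simp [Finset.sum_add_distrib]
  map_smul' c a := funext fun k' => by simp [Finset.smul_sum]

theorem red_S_apply (z : ZMod N → E n) (k' : ZMod N') :
    red_S π z k' = ∑ k ∈ Finset.univ.filter fun k => π k = k', z k := rfl

/-- pull-back -/
def red_J : (ZMod N' → E n) →L[ℝ] ZMod N → E n := ContinuousLinearMap.pi fun k => ContinuousLinearMap.proj (π k)

theorem red_J_apply (y : ZMod N' → E n) (k : ZMod N) : red_J π y k = y (π k) := rfl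

theorem red_const (hs : Function.Surjective π) (hq : N = q * N') {z : ZMod N → E n} {k' : ZMod N'} {v : E n}
    (h : ∀ k, π k = k' → z k = v) : red_S π z k' = (q : ℝ) • v := by
  rw [red_S_apply, Finset.sum_congr rfl fun k hk => h k (Finset.mem_filter.1 hk).2, Finset.sum_const,
    red_card π hs hq, Nat.cast_smul_eq_nsmul]

theorem red_SJ (hs : Function.Surjective π) (hq : N = q * N') (y : ZMod N' → E n) :
    red_S π (red_J π y) = (q : ℝ) • y :=
  funext fun k' => red_const π hs hq fun k hk => by rw [red_J_apply, hk]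

theorem red_lin (L : ZMod N' → E n × E n →L[ℝ] ℝ) {z : ZMod N → E n} (hz : red_S π z = 0) :
    ∑ k, L (π k) (z k, z (k + 1)) = 0 := by
  rw [← Finset.sum_fiberwise Finset.univ π]
  refine Finset.sum_eq_zero fun k' _ => ?_
  rw [Finset.sum_congr rfl fun k hk => congrArg (fun j => L j (z k, z (k + 1))) (Finset.mem_filter.1 hk).2,
    ← map_sum, ← prod_mk_sum]
  have h1 : ∑ k ∈ Finset.univ.filter fun k => π k = k', z (k + 1) = red_S π z (k' + 1) :=
    Finset.sum_equiv (Equiv.addRight 1) (fun k => by simp) fun k _ => rfl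
  rw [h1, ← red_S_apply, hz]
  exact map_zero _

theorem red_inner (w : ZMod N' → E n) (z : ZMod N → E n) (k' : ZMod N') :
    ⟪red_S π z k', w k'⟫ = ∑ k ∈ Finset.univ.filter fun k => π k = k', ⟪z k, w (π k)⟫ := by
  rw [red_S_apply, sum_inner]
  exact Finset.sum_congr rfl fun k hk => by rw [(Finset.mem_filter.1 hk).2]

theorem Setup.red_core (G : Setup n) (hs : Function.Surjective π) (hq : N = q * N') {p : ZMod N → M n}
    {p' : ZMod N' → M n} {w : ZMod N → E n} {w' : ZMod N' → E n} (hp : ∀ k, p k = p' (π k))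
    (hw : ∀ k, w k = w' (π k))
    (hk : ∀ y ∈ VV p, (∀ v ∈ VV p, fderiv ℝ (fderiv ℝ (G.FF p)) 0 y v = 0) → ∀ k j, π k = π j → y k = y j)
    {a : ℝ} (ha : G.FF p 0 = q ^ 2 * a) {R : ℕ} (hR : LR (fun v : V0 p' w' => G.FF p' v) {0} a R) :
    LR (fun v : V0 p w => G.FF p v) {0} (G.FF p 0) R := by
  have hq0 : (0 : ℝ) < q := by
    have : q ≠ 0 := fun h0 => NeZero.ne N (by rw [hq, h0, zero_mul])
    positivity
  have hJ : ∀ y ∈ VV p', red_J π y ∈ VV p := fun y hy k => by rw [red_J_apply, hp, hy]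
  have hS : ∀ v ∈ VV p, red_S π v ∈ VV p' := fun v hv k' => by
    rw [red_inner π fun k => (p' k : E n)]
    exact Finset.sum_eq_zero fun k _ => by rw [← hp, hv]
  have hx : ∀ v, xi w' (red_S π v) = xi w v := fun v => by
    simp only [xi_apply, red_inner, hw]
    exact Finset.sum_fiberwise _ _ _
  have hdec : ∀ v ∈ VV p, v - red_J π ((q : ℝ)⁻¹ • red_S π v) ∈ VV p ⊓ LinearMap.ker (red_S π) := fun v hv =>
    ⟨sub_mem hv (hJ _ (Submodule.smul_mem _ _ (hS v hv))), by
      rw [SetLike.mem_coe, LinearMap.mem_ker, map_sub, red_SJ π hs hq, smul_inv_smul₀ hq0.ne', sub_self]⟩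
  have hF : ∀ y, G.FF p (red_J π y) = q ^ 2 * G.FF p' y := fun y => by
    simp only [Setup.FF, red_J_apply, hp, map_add, map_one]
    rw [red_sum π hs hq fun k => G.hS (p' k) (p' (k + 1)) (y k, y (k + 1)),
      show (N : ℝ) = q * N' by exact_mod_cast hq]
    ring
  refine LR.split (G.contDiff_FF p) ((red_J π).comp (V0 p' w').subtypeL) (V0 p w)
    (VV p ⊓ LinearMap.ker (red_S π)) (fun x => ⟨hJ _ x.2.1, ?_⟩) (fun z hz => ⟨hz.1, ?_⟩) (fun v hv => ?_)
    (fun x hx => ?_) (fun x z hz => ?_) (fun z hz h2 => ?_) ?_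
  · change xi w (red_J π x) = 0
    rw [← hx, red_SJ π hs hq, map_smul, (mem_V0.1 x.2).2, smul_zero]
  · change xi w z = 0
    rw [← hx, LinearMap.mem_ker.1 hz.2, map_zero]
  · refine ⟨⟨(q : ℝ)⁻¹ • red_S π v, Submodule.smul_mem _ _ (mem_V0.2 ⟨hS v hv.1, ?_⟩)⟩, _, hdec v hv.1,
      (add_sub_cancel _ _).symm⟩
    rw [hx, (mem_V0.1 hv).2]
  · have h1 : red_S π (red_J π x.1) = 0 := hx.2
    rw [red_SJ π hs hq] at h1
    exact Subtype.ext ((smul_eq_zero.1 h1).resolve_left hq0.ne')
  · change fderiv ℝ (G.FF p) (red_J π x) z = 0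
    rw [G.fderiv_FF]
    simp only [red_J_apply, hp, map_add, map_one]
    rw [red_lin π (fun k => fderiv ℝ (G.hS (p' k) (p' (k + 1))) (x.1 k, x.1 (k + 1))) hz.2, mul_zero]
  · have h3 := hk z hz.1 fun v hv => by
      rw [← add_sub_cancel (red_J π ((q : ℝ)⁻¹ • red_S π v)) v, map_add, h2 _ (hdec v hv), add_zero,
        model_symm (G.contDiff_FF p), G.fderiv2_FF]
      simp only [red_J_apply, hp, map_add π, map_one, Pi.zero_apply]
      rw [red_lin π (fun k => fderiv ℝ (fderiv ℝ (G.hS (p' k) (p' (k + 1)))) (0, 0)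
        (((q : ℝ)⁻¹ • red_S π v) k, ((q : ℝ)⁻¹ • red_S π v) (k + 1))) hz.2, mul_zero]
    funext k
    have h4 := red_const π hs hq (z := z) (k' := π k) (v := z k) fun j hj => h3 j k hj
    rw [LinearMap.mem_ker.1 hz.2] at h4
    exact (smul_eq_zero.1 h4.symm).resolve_left hq0.ne'
  · have h1 := hR.const_mul (c := q ^ 2) (by positivity)
    rw [ha]
    have e : (fun x : V0 p' w' => G.FF p (((red_J π).comp (V0 p' w').subtypeL) x)) =
        fun x : V0 p' w' => q ^ 2 * G.FF p' x := funext fun x => hF x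
    rwa [e]

end

namespace Setup
variable {n : ℕ} (G : Setup n)

theorem red (i : G.ι) (N₀ m₀ m N' N : ℕ) [NeZero N'] [NeZero N] (hN' : N' = m₀ * N₀) (hN : N = m * N₀)
    (hd : m₀ ∣ m) (h : G.ℓ i < N₀ * G.δ)
    (hk : ∀ y ∈ VV (G.bp i m N), (∀ v ∈ VV (G.bp i m N), fderiv ℝ (fderiv ℝ (G.FF (G.bp i m N))) 0 y v = 0) →
      ∀ k, y (k + (N' : ZMod N)) = y k) {R : ℕ} (hR : G.SL i m₀ N' R) : G.SL i m N R := by
  obtain ⟨q, rfl⟩ := hd
  have hq : N = q * N' := by rw [hN, hN']; ring
  have hq0 : (0 : ℝ) < q := by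
    have : q ≠ 0 := fun h0 => NeZero.ne N (by rw [hq, h0, zero_mul])
    positivity
  have hN0 : (N' : ℝ) ≠ 0 := Nat.cast_ne_zero.2 (NeZero.ne N')
  let π := ZMod.castHom (Dvd.intro_left q hq.symm) (ZMod N')
  have hs : Function.Surjective π := ZMod.castHom_surjective _
  have e0 : ∀ z : ℤ, ((m₀ * q : ℕ) : ℝ) * (z / N) = m₀ * (z / N') := fun z => by
    rw [hq]
    push_cast
    field_simp
  have hp : ∀ k, G.bp i (m₀ * q) N k = G.bp i m₀ N' (π k) := fun k => by
    rw [← ZMod.intCast_zmod_cast k, map_intCast, bp_intCast, bp_intCast, e0]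
  have hw : ∀ k, G.bw i (m₀ * q) N k = G.bw i m₀ N' (π k) := fun k => by
    rw [← ZMod.intCast_zmod_cast k, map_intCast, bw_intCast, bw_intCast, e0]
  have hper : ∀ y : ZMod N → E n, (∀ k, y (k + (N' : ZMod N)) = y k) → ∀ k j, π k = π j → y k = y j :=
    fun y hy k j hkj => by
      rw [← ZMod.intCast_zmod_cast k, ← ZMod.intCast_zmod_cast j, map_intCast, map_intCast,
        ZMod.intCast_eq_intCast_iff_dvd_sub] at hkj
      obtain ⟨t, ht⟩ := hkj
      have h1 := congrArg (Int.cast : ℤ → ZMod N) ht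
      push_cast at h1
      rw [sub_eq_iff_eq_add'] at h1
      rw [h1, mul_comm]
      exact (Function.Periodic.int_mul hy t k).symm
  have h1 : ((m₀ * q : ℕ) : ℝ) * G.ℓ i < N * G.δ := by
    rw [hN]
    push_cast
    have : (0 : ℝ) < m₀ := by
      have : m₀ ≠ 0 := fun h0 => NeZero.ne N' (by rw [hN', h0, zero_mul])
      positivity
    nlinarith [mul_pos this hq0]
  have h2 := G.red_core π hs hq hp hw (fun y hy hy' => hper y (hk y hy hy')) (a := (m₀ * G.ℓ i) ^ 2)
    (by rw [G.FF_zero i h1]; push_cast; ring) hR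
  rwa [G.FF_zero i h1] at h2

end Setup

end Crest.Agent.R231
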