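import Crest.Agent.R231.GM.Mono
import Crest.Agent.R231.GM.LR
import Crest.Agent.R231.D.BH

/-! R231, block GM: the arc lemma.  `σ x` = the zero of `s ↦ xM w (sh s x)` in `[-2η/m, 2η/m]` (continuous by
`continuousOn_argmin` for `|xM w (sh s x)|`), `α γ = co p (sh (σ x) x)`, `x = nodes γ`, `β y = π (ch p y)`.
`NH`: `B1` from `γ` to `Λ γ = uL (T, nodes γ)`, then `(Λ γ).shift (u σ)`, then `BH` applied to `(Λ γ).shift σ`
(`nodes_shift_uL`).  `LR.transfer`. -/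

set_option autoImplicit false
set_option linter.unusedVariables false
set_option linter.unusedSectionVars false
set_option linter.unusedSimpArgs false
open Set
open scoped Classical ContDiff RealInnerProductSpace

noncomputable section
namespace Crest.Agent.R231

namespace Setup
variable {n : ℕ} (G : Setup n)

theorem exists_sigma (i : G.ι) : ∃ η, 0 < η ∧ ∀ (m N : ℕ) [NeZero N], 0 < m → m * G.ℓ i < N * G.δ →
    ∃ (O : Set (ZMod N → M n)) (σ : (ZMod N → M n) → ℝ), IsOpen O ∧ O ⊆ G.Dom N ∧ ContinuousOn σ O ∧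
      (∀ θ, |θ| ≤ η → G.nodes N (G.geo i m true θ) ∈ O ∧ σ (G.nodes N (G.geo i m true θ)) = -θ / m) ∧
      ∀ x ∈ O, xM (G.bw i m N) (G.sh N (σ x) x) = 0 := by
  obtain ⟨η, hη, H⟩ := G.mono i
  refine ⟨η, hη, fun m N _ hm h => ?_⟩
  obtain ⟨κ, hκ, O, hO, hOD, hθ, hmono⟩ := H m N hm h
  have hm0 : (0 : ℝ) < m := by exact_mod_cast hm
  obtain ⟨e, he, he3⟩ : ∃ e, 0 < e ∧ η / m = e := ⟨η / m, by positivity, rfl⟩
  simp only [mul_div_assoc, he3] at hmono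
  set g : (ZMod N → M n) × ℝ → ℝ := fun q => xM (G.bw i m N) (G.sh N q.2 q.1) with hg
  have hgc : ContinuousOn g (O ×ˢ univ) := (continuous_xM _).comp_continuousOn
    ((G.continuousOn_sh N).comp continuous_swap.continuousOn fun q hq => ⟨trivial, hOD hq.1⟩)
  have hgx : ∀ s, ContinuousOn (fun x => g (x, s)) O := fun s =>
    hgc.comp (by fun_prop) fun x hx => ⟨hx, trivial⟩
  have ha : ∀ {s}, s ∈ Icc (-(2 * e)) (2 * e) → |s| ≤ 3 * e := fun hs => abs_le.2 ⟨by linarith [hs.1], by linarith [hs.2]⟩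
  have uniq : ∀ x ∈ O, ∀ s ∈ Icc (-(2 * e)) (2 * e), ∀ s' ∈ Icc (-(2 * e)) (2 * e),
      g (x, s) = 0 → g (x, s') = 0 → s = s' := fun x hx s hs s' hs' h1 h2 => by
    simp only [hg] at h1 h2
    rcases le_total s s' with h3 | h3
    · have := hmono x hx s s' (ha hs) (ha hs') h3
      nlinarith
    · have := hmono x hx s' s (ha hs') (ha hs) h3
      nlinarith
  set O' := (O ∩ (fun x => g (x, -(2 * e))) ⁻¹' Iio 0) ∩ (O ∩ (fun x => g (x, 2 * e)) ⁻¹' Ioi 0) with hO'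
  have hex : ∀ x, ∃ s, x ∈ O' → s ∈ Icc (-(2 * e)) (2 * e) ∧ g (x, s) = 0 := fun x => by
    by_cases hx : x ∈ O'
    · obtain ⟨s, h1, h2⟩ := intermediate_value_Icc (f := fun s => g (x, s)) (a := -(2 * e)) (b := 2 * e)
        (by linarith) (hgc.comp (by fun_prop) fun s _ => ⟨hx.1.1, trivial⟩) ⟨le_of_lt hx.1.2, le_of_lt hx.2.2⟩
      exact ⟨s, fun _ => ⟨h1, h2⟩⟩
    · exact ⟨0, fun h => (hx h).elim⟩
  choose σ hσ using hex
  refine ⟨O', σ, ((hgx _).isOpen_inter_preimage hO isOpen_Iio).inter ((hgx _).isOpen_inter_preimage hO isOpen_Ioi),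
    fun x hx => hOD hx.1.1, continuousOn_argmin isCompact_Icc (F := fun q => |g q|)
      (hgc.mono fun q hq => ⟨hq.1.1.1, trivial⟩).abs (fun x hx => (hσ x hx).1) fun x hx u hu hne => ?_,
    fun θ hθ' => ?_, fun x hx => (hσ x hx).2⟩
  · rw [(hσ x hx).2, abs_zero, abs_pos]
    exact fun h0 => hne (uniq x hx.1.1 _ hu _ (hσ x hx).1 h0 (hσ x hx).2)
  · have h0 : g (G.nodes N (G.geo i m true θ), -θ / m) = 0 := by
      simp only [hg]
      rw [G.sh_nodes_geo N i m true θ _ h, show θ + sg true * m * (-θ / m) = 0 by simp only [sg, if_true]; field_simp; ring]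
      exact G.xM_bp i m
    have h1 : |-θ / m| ≤ e := by
      rw [abs_div, abs_neg, abs_of_pos hm0, ← he3]
      exact div_le_div_of_nonneg_right hθ' hm0.le
    have h2 := abs_le.1 h1
    have h3 : G.nodes N (G.geo i m true θ) ∈ O' := by
      have k1 := hmono _ (hθ θ hθ') (-(2 * e)) (-θ / m) (ha ⟨le_rfl, by linarith⟩) (by linarith) (by linarith)
      have k2 := hmono _ (hθ θ hθ') (-θ / m) (2 * e) (by linarith) (ha ⟨by linarith, le_rfl⟩) (by linarith)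
      simp only [hg] at h0
      exact ⟨⟨hθ θ hθ', show xM _ _ < 0 by nlinarith⟩, hθ θ hθ', show 0 < xM _ _ by nlinarith⟩
    exact ⟨h3, uniq _ (hθ θ hθ') _ (hσ _ h3).1 _ ⟨by linarith, by linarith⟩ (hσ _ h3).2 h0⟩

theorem arc (i : G.ι) : ∃ η, 0 < η ∧ ∀ (m N : ℕ) [NeZero N], 0 < m → m * G.ℓ i < N * G.δ → ∀ R, G.SL i m N R →
    ∀ b ∈ Icc (0 : ℝ) η, LR G.T2 (G.geo i m true '' Icc 0 b) ((m * G.ℓ i) ^ 2) R := by
  obtain ⟨η, hη, H⟩ := G.exists_sigma i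
  refine ⟨η, hη, fun m N _ hm h R hR b hb => ?_⟩
  obtain ⟨O, σ, hO, hOD, hσ, hθ, hz⟩ := H m N hm h
  obtain ⟨H₁, c₁, e₁, t₁, g₁⟩ := G.exists_B1 N
  obtain ⟨π, H₃, cπ, tπ, c₃, e₃, g₃⟩ := G.exists_BH N
  have hm0 : (0 : ℝ) < m := by exact_mod_cast hm
  set p := G.bp i m N with hp
  set w := G.bw i m N with hw
  set s : G.Loop → ℝ := fun γ => σ (G.nodes N γ) with hs
  set y : G.Loop → ZMod N → M n := fun γ => G.sh N (s γ) (G.nodes N γ) with hy
  set Λ : G.Loop → G.Loop := fun γ => G.uL N (γ.T, G.nodes N γ) with hΛ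
  set O₁ := G.Lt (N * G.δ) ∩ G.nodes N ⁻¹' O with hO₁
  have cn := G.continuous_nodes N
  have o₁ : IsOpen O₁ := (isOpen_Lt _).inter (hO.preimage cn)
  have cs : ContinuousOn s O₁ := hσ.comp cn.continuousOn fun γ hγ => hγ.2
  have cy : ContinuousOn y O₁ := (G.continuousOn_sh N).comp (cs.prodMk cn.continuousOn)
    fun γ hγ => ⟨trivial, hOD hγ.2⟩
  have hU : ∀ γ ∈ O₁, (γ.T, G.nodes N γ) ∈ G.UDom N := fun γ hγ => G.nodes_mem_UDom N hγ.1
  have cΛ : ContinuousOn Λ O₁ := (G.continuousOn_uL N).comp (continuous_T.prodMk cn).continuousOn hU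
  have tΛ : ∀ γ ∈ O₁, (Λ γ).T = γ.T := fun γ hγ => G.uL_T N (hU γ hγ)
  set O₀ := O₁ ∩ y ⁻¹' Metric.ball p (1 / 2) with hO₀
  have o₀ : IsOpen O₀ := cy.isOpen_inter_preimage o₁ Metric.isOpen_ball
  have hC : ∀ θ ∈ Icc 0 b, G.geo i m true θ ∈ O₁ ∧ s (G.geo i m true θ) = -θ / m ∧
      Λ (G.geo i m true θ) = G.geo i m true θ := fun θ hθ' => by
    have h1 := hθ θ (abs_le.2 ⟨by linarith [hθ'.1], hθ'.2.trans hb.2⟩)
    refine ⟨⟨show Loop.T _ < _ by rwa [geo_T], h1.1⟩, h1.2, ?_⟩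
    simp only [hΛ, geo_T]
    exact G.uL_nodes_geo N i m true θ h
  have hsh : ∀ θ u : ℝ, (G.geo i m true θ).shift (u * (-θ / m)) = G.geo i m true ((1 - u) * θ) := fun θ u => by
    rw [geo_shift]
    congr 1
    simp only [sg, if_true]
    field_simp
    ring
  have hny : ∀ γ ∈ O₁, G.nodes N ((Λ γ).shift (s γ)) = y γ := fun γ hγ => G.nodes_shift_uL N (hU γ hγ) _
  have hyC : ∀ θ ∈ Icc 0 b, (Λ (G.geo i m true θ)).shift (s (G.geo i m true θ)) = G.geo i m true 0 :=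
    fun θ hθ' => by
      have := hsh θ 1
      rw [one_mul, sub_self, zero_mul] at this
      rw [(hC θ hθ').2.2, (hC θ hθ').2.1, this]
  have hyp : ∀ θ ∈ Icc 0 b, y (G.geo i m true θ) = p := fun θ hθ' => by
    rw [← hny _ (hC θ hθ').1, hyC θ hθ']
    rfl
  have hCO : G.geo i m true '' Icc 0 b ⊆ O₀ := by
    rintro _ ⟨θ, hθ', rfl⟩
    exact ⟨(hC θ hθ').1, by rw [mem_preimage, hyp θ hθ']; exact Metric.mem_ball_self (by norm_num)⟩
  have h0C : G.geo i m true 0 ∈ G.geo i m true '' Icc 0 b := ⟨0, ⟨le_rfl, hb.1⟩, rfl⟩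
  have hsq : ∀ {γ γ' : G.Loop}, γ.T ≤ γ'.T → G.T2 γ ≤ G.T2 γ' := fun {γ γ'} h =>
    pow_le_pow_left₀ γ.T_nonneg h 2
  have hV : ∀ γ ∈ O₀, co p (y γ) ∈ V0 p w := fun γ hγ =>
    mem_V0.2 ⟨co_mem _ _, (xi_co (G.bw_mem i m) _).trans (hz _ hγ.1.2)⟩
  have hch : ∀ γ ∈ O₀, ch p (toSub (V0 p w) (co p (y γ))) = y γ := fun γ hγ => by
    rw [toSub_val (hV γ hγ), ch_co (le_of_lt hγ.2)]
  have cch : ContinuousOn (fun v : V0 p w => ch p v) (Metric.ball 0 (1 / 2)) :=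
    (continuousOn_ch p).comp continuous_subtype_val.continuousOn fun v hv =>
      ⟨v.2.1, (mem_ball_zero_iff.1 hv).le⟩
  have hpD : p ∈ G.Dom N := G.bp_mem_Dom i h
  have hLt : ∀ γ ∈ O₀, (Λ γ).shift (s γ) ∈ G.Lt (N * G.δ) := fun γ hγ =>
    show (Λ γ).T < _ by rw [tΛ γ hγ.1]; exact hγ.1.1
  refine LR.transfer (α := fun γ => toSub (V0 p w) (co p (y γ))) (β := fun v => π (ch p v))
    (P₀ := Metric.ball 0 (1 / 2) ∩ (fun v : V0 p w => ch p v) ⁻¹' G.Dom N) o₀ hCO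
    (cch.isOpen_inter_preimage Metric.isOpen_ball (G.isOpen_Dom N))
    ⟨Metric.mem_ball_self (by norm_num), by rw [mem_preimage, ZeroMemClass.coe_zero, ch_zero]; exact hpD⟩
    (continuousOn_toSub ((continuous_co p).comp_continuousOn (cy.mono inter_subset_left)) hV)
    (cπ.comp (cch.mono inter_subset_left) fun v hv => hv.2) ?_ ?_ (fun γ hγ => ?_) (fun v hv => ?_) ?_ hR
  · rintro _ ⟨θ, hθ', rfl⟩
    refine Subtype.ext ?_
    rw [toSub_val (hV _ (hCO ⟨θ, hθ', rfl⟩)), hyp θ hθ', co_self]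
    rfl
  · have h1 := (e₃ _ (hC 0 ⟨le_rfl, hb.1⟩).1.1).2.1
    rw [g₃ i m true 0 h 1 ⟨zero_le_one, le_rfl⟩] at h1
    rw [ZeroMemClass.coe_zero, ch_zero]
    exact h1 ▸ h0C
  · have h1 : ‖co p (y γ)‖ ≤ 1 / 2 := by
      have := norm_co_sub_le p (y γ) p
      rw [co_self, sub_zero] at this
      exact this.trans (le_of_lt hγ.2)
    have h2 := ch_co (le_of_lt (Metric.mem_ball.1 hγ.2))
    rw [toSub_val (hV γ hγ), G.FF_eq_en (co_mem _ _) h1 (by rw [h2]; exact G.sh_mem_Dom N (hOD hγ.1.2) _), h2]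
    exact (G.en_sh_le N (hOD hγ.1.2) _).trans (G.en_nodes_le N γ)
  · rw [T2, tπ _ hv.2, Real.sq_sqrt (G.en_nonneg N _), G.FF_eq_en v.2.1 (mem_ball_zero_iff.1 hv.1).le hv.2]
  · refine NH.trans (F₁ := Λ) ?_ (NH.trans (F₁ := fun γ => (Λ γ).shift (s γ)) ?_ ?_)
    · refine NH.of_hty o₀ hCO (c₁.mono (prod_mono subset_rfl fun γ hγ => hγ.1.1))
        (fun γ hγ => (e₁ γ hγ.1.1).1) (fun γ hγ => (e₁ γ hγ.1.1).2) ?_ fun γ hγ u hu => hsq (t₁ γ hγ.1.1 u hu).1.le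
      rintro _ ⟨θ, hθ', rfl⟩ u hu
      rw [g₁ i m true θ h u hu]
      exact ⟨θ, hθ', rfl⟩
    · refine NH.of_hty (H := fun q => (Λ q.2).shift (q.1 * s q.2)) o₀ hCO
        (continuous_shift.comp_continuousOn (f := fun q : ℝ × G.Loop => (q.1 * s q.2, Λ q.2))
          ((continuousOn_fst.mul (cs.comp continuousOn_snd fun q hq => hq.2.1)).prodMk
            (cΛ.comp continuousOn_snd fun q hq => hq.2.1)))
        (fun γ _ => by simp only [zero_mul, shift_zero]) (fun γ _ => by simp only [one_mul]) ?_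
        fun γ hγ u hu => hsq (tΛ γ hγ.1).le
      rintro _ ⟨θ, hθ', rfl⟩ u hu
      simp only [(hC θ hθ').2.1, (hC θ hθ').2.2, hsh]
      exact ⟨_, ⟨mul_nonneg (sub_nonneg.2 hu.2) hθ'.1, by nlinarith [hθ'.1, hθ'.2, hu.1]⟩, rfl⟩
    · refine NH.of_hty (H := fun q => H₃ (q.1, (Λ q.2).shift (s q.2))) o₀ hCO
        (c₃.comp (continuousOn_fst.prodMk ((continuous_shift.comp_continuousOn
          (f := fun γ : G.Loop => (s γ, Λ γ)) (cs.prodMk cΛ)).comp continuousOn_snd fun q hq => hq.2.1))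
          fun q hq => ⟨hq.1, hLt _ hq.2⟩)
        (fun γ hγ => (e₃ _ (hLt γ hγ)).1) (fun γ hγ => ?_) ?_
        fun γ hγ u hu => hsq (((e₃ _ (hLt γ hγ)).2.2 u hu).trans (tΛ γ hγ.1).le)
      · rw [(e₃ _ (hLt γ hγ)).2.1, hny γ hγ.1, hch γ hγ]
      · rintro _ ⟨θ, hθ', rfl⟩ u hu
        simp only [hyC θ hθ', g₃ i m true 0 h u hu]
        exact h0C

end Setup

end Crest.Agent.R231
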